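import Mathlib.Analysis.SpecialFunctions.Pow.Real
import Mathlib.Tactic
import Vale.Agent.Lib.P154.AFCore

/-!
Soundness of the affine arithmetic of `AFCore`.
-/

namespace Vale.Agent.Lib.P154

/-- Integer value of an offset number. -/
def zv (x : ℕ) : ℤ := (x : ℤ) - 281474976710656

/-- Real value of an offset number. -/
noncomputable def rv (x : ℕ) : ℝ := (zv x : ℝ) / 268435456

lemma forceN_eq {α : Type} (n : ℕ) (k : ℕ → α) : forceN n k = k n := by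
  cases n <;> rfl

lemma ble_true_iff (a b : ℕ) : Nat.ble a b = true ↔ a ≤ b := by
  simp [Nat.ble_eq]

lemma sabs_eq (x : ℕ) : ((sabs x : ℕ) : ℤ) = |zv x| := by
  unfold sabs zv
  by_cases h : 281474976710656 ≤ x
  · have h1 : Nat.ble 281474976710656 x = true := (ble_true_iff _ _).2 h
    rw [h1]
    show ((Nat.sub x 281474976710656 : ℕ) : ℤ) = _
    rw [abs_of_nonneg (by omega)]
    show ((x - 281474976710656 : ℕ) : ℤ) = _
    omega
  · have h1 : Nat.ble 281474976710656 x = false := by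
      rw [← Bool.not_eq_true, ble_true_iff]; exact h
    rw [h1]
    show ((Nat.sub 281474976710656 x : ℕ) : ℤ) = _
    rw [abs_of_neg (by omega)]
    show ((281474976710656 - x : ℕ) : ℤ) = _
    omega

lemma sabs_real (x : ℕ) : ((sabs x : ℕ) : ℝ) = |(zv x : ℝ)| := by
  have := sabs_eq x
  have h2 : (((sabs x : ℕ) : ℤ) : ℝ) = ((|zv x| : ℤ) : ℝ) := by rw [this]
  rw [Int.cast_abs] at h2
  simpa using h2

lemma rad_real (A : AF) : ((AF.rad A : ℕ) : ℝ) =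
    |(zv A.a0 : ℝ)| + |(zv A.a1 : ℝ)| + |(zv A.a2 : ℝ)| + |(zv A.a3 : ℝ)| + (A.e : ℝ) := by
  unfold AF.rad
  show (((sabs A.a0 + sabs A.a1 + sabs A.a2 + sabs A.a3 + A.e : ℕ)) : ℝ) = _
  push_cast
  rw [sabs_real, sabs_real, sabs_real, sabs_real]

/-- Specification of the fixed-point product. -/
lemma smul_spec (x y : ℕ) (h : |zv x * zv y| ≤ 18889465931478580854784) :
    ∃ d : ℝ, 0 ≤ d ∧ d ≤ 1 ∧ rv (smul x y) = rv x * rv y - d / 268435456 ∧
      |zv (smul x y)| ≤ 70368744177665 := by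
  set A : ℕ := x * y + 79228238072128063507867369472 - 281474976710656 * (x + y) with hA
  have hzz : zv x * zv y = (x : ℤ) * y - 281474976710656 * (x + y) + 79228162514264337593543950336 := by
    unfold zv; ring
  have hb := abs_le.1 h
  have hA' : (A : ℤ) = zv x * zv y + 75557863725914323419136 := by
    rw [hA, Nat.cast_sub]
    · push_cast; rw [hzz]; ring
    · have : (281474976710656 * (x + y) : ℤ) ≤ (x : ℤ) * y + 79228238072128063507867369472 := by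
        rw [hzz] at hb; linarith [hb.1]
      exact_mod_cast this
  have hs : smul x y = A / 268435456 := by
    show A >>> 28 = _
    rw [Nat.shiftRight_eq_div_pow]
  set q := A / 268435456 with hq
  set s := A % 268435456 with hs'
  have hdiv : A = 268435456 * q + s := (Nat.div_add_mod A 268435456).symm
  have hslt : s < 268435456 := Nat.mod_lt _ (by norm_num)
  have hA'' : (268435456 : ℤ) * q + s = zv x * zv y + 75557863725914323419136 := by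
    rw [← hA']; exact_mod_cast hdiv.symm
  refine ⟨(s : ℝ) / 268435456, by positivity, ?_, ?_, ?_⟩
  · rw [div_le_one (by norm_num)]
    exact_mod_cast hslt.le
  · rw [hs]
    have h3 : (268435456 : ℝ) * q + s = (zv x : ℝ) * zv y + 75557863725914323419136 := by
      exact_mod_cast hA''
    unfold rv
    have hzq : ((zv q : ℤ) : ℝ) = (q : ℝ) - 281474976710656 := by
      unfold zv; push_cast; ring
    rw [hzq]
    field_simp
    linarith
  · rw [hs]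
    have hq1 : zv q = q - 281474976710656 := rfl
    rw [hq1]
    rw [abs_le]
    have hs0 : (0 : ℤ) ≤ s := by positivity
    have hs1 : (s : ℤ) < 268435456 := by exact_mod_cast hslt
    constructor <;> nlinarith [hb.1, hb.2]

section rel

variable (ξ0 ξ1 ξ2 ξ3 : ℝ)

/-- The linear part of an affine form at a noise vector. -/
noncomputable def AF.lin (A : AF) : ℝ :=
  rv A.c + rv A.a0 * ξ0 + rv A.a1 * ξ1 + rv A.a2 * ξ2 + rv A.a3 * ξ3

/-- The real number `y` is represented by the affine form `A` at the noise vector. -/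
def AF.Rel (A : AF) (y : ℝ) : Prop :=
  |y - AF.lin ξ0 ξ1 ξ2 ξ3 A| ≤ (A.e : ℝ) / 268435456

end rel

section sound

variable {ξ0 ξ1 ξ2 ξ3 : ℝ}

lemma rv_mul_xi_abs (x : ℕ) {ξ : ℝ} (hξ : |ξ| ≤ 1) :
    |rv x * ξ| ≤ |(zv x : ℝ)| / 268435456 := by
  unfold rv
  rw [abs_mul, abs_div]
  have h : |(268435456 : ℝ)| = 268435456 := by norm_num
  rw [h]
  have h2 : 0 ≤ |(zv x : ℝ)| / 268435456 := by positivity
  calc _ ≤ |(zv x : ℝ)| / 268435456 * 1 := by gcongr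
    _ = _ := by ring

/-- Distance to the center of an affine form, bounded by its radius. -/
lemma rel_center (h0 : |ξ0| ≤ 1) (h1 : |ξ1| ≤ 1) (h2 : |ξ2| ≤ 1) (h3 : |ξ3| ≤ 1) {A : AF} {y : ℝ}
    (h : AF.Rel ξ0 ξ1 ξ2 ξ3 A y) : |y - rv A.c| ≤ ((AF.rad A : ℕ) : ℝ) / 268435456 := by
  rw [rad_real]
  unfold AF.Rel AF.lin at h
  have b0 := rv_mul_xi_abs A.a0 h0
  have b1 := rv_mul_xi_abs A.a1 h1
  have b2 := rv_mul_xi_abs A.a2 h2
  have b3 := rv_mul_xi_abs A.a3 h3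
  rw [abs_le] at h b0 b1 b2 b3 ⊢
  constructor
  · have : ((|(zv A.a0 : ℝ)| + |(zv A.a1 : ℝ)| + |(zv A.a2 : ℝ)| + |(zv A.a3 : ℝ)| + (A.e : ℝ)) / 268435456)
      = |(zv A.a0 : ℝ)| / 268435456 + |(zv A.a1 : ℝ)| / 268435456 + |(zv A.a2 : ℝ)| / 268435456
        + |(zv A.a3 : ℝ)| / 268435456 + (A.e : ℝ) / 268435456 := by ring
    rw [this]; linarith [h.1, h.2, b0.1, b0.2, b1.1, b1.2, b2.1, b2.2, b3.1, b3.2]
  · have : ((|(zv A.a0 : ℝ)| + |(zv A.a1 : ℝ)| + |(zv A.a2 : ℝ)| + |(zv A.a3 : ℝ)| + (A.e : ℝ)) / 268435456)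
      = |(zv A.a0 : ℝ)| / 268435456 + |(zv A.a1 : ℝ)| / 268435456 + |(zv A.a2 : ℝ)| / 268435456
        + |(zv A.a3 : ℝ)| / 268435456 + (A.e : ℝ) / 268435456 := by ring
    rw [this]; linarith [h.1, h.2, b0.1, b0.2, b1.1, b1.2, b2.1, b2.2, b3.1, b3.2]

lemma bool_guard {g X : Bool} (h : (Bool.rec false X g : Bool) = true) : g = true ∧ X = true := by
  cases g
  · simp at h
  · exact ⟨rfl, h⟩

lemma pmul_ge (u v : ℕ) : ((u : ℝ) * v) / 268435456 - 1 ≤ (pmul u v : ℝ) := by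
  have hs : pmul u v = (u * v) / 268435456 := by
    show (u * v) >>> 28 = _
    rw [Nat.shiftRight_eq_div_pow]
  have h1 : u * v < 268435456 * ((u * v) / 268435456 + 1) := Nat.lt_mul_div_succ _ (by norm_num)
  rw [hs]
  have h2 : ((u : ℝ) * v) < 268435456 * ((((u * v) / 268435456 : ℕ) : ℝ) + 1) := by exact_mod_cast h1
  rw [sub_le_iff_le_add, div_le_iff₀ (by norm_num)]
  linarith

lemma pmul_scaled (u v : ℕ) : (u : ℝ) * v / 72057594037927936 ≤ ((pmul u v : ℝ) + 1) / 268435456 := by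
  have h := pmul_ge u v
  have h2 : (u : ℝ) * v / 268435456 ≤ (pmul u v : ℝ) + 1 := by linarith
  have h3 : (u : ℝ) * v / 72057594037927936 = ((u : ℝ) * v / 268435456) / 268435456 := by
    rw [div_div]; norm_num
  rw [h3]
  exact div_le_div_of_nonneg_right h2 (by norm_num)

lemma zv_le_sabs (x : ℕ) : |zv x| = (sabs x : ℤ) := (sabs_eq x).symm

lemma rad_nonneg_int (A : AF) : (0 : ℤ) ≤ (AF.rad A : ℕ) := by positivity

lemma abs_a_le_rad (A : AF) : |zv A.a0| ≤ (AF.rad A : ℕ) ∧ |zv A.a1| ≤ (AF.rad A : ℕ) ∧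
    |zv A.a2| ≤ (AF.rad A : ℕ) ∧ |zv A.a3| ≤ (AF.rad A : ℕ) := by
  have h : ((AF.rad A : ℕ) : ℤ) = |zv A.a0| + |zv A.a1| + |zv A.a2| + |zv A.a3| + (A.e : ℤ) := by
    unfold AF.rad
    show ((sabs A.a0 + sabs A.a1 + sabs A.a2 + sabs A.a3 + A.e : ℕ) : ℤ) = _
    push_cast
    rw [sabs_eq, sabs_eq, sabs_eq, sabs_eq]
  have h0 := abs_nonneg (zv A.a0)
  have h1 := abs_nonneg (zv A.a1)
  have h2 := abs_nonneg (zv A.a2)
  have h3 := abs_nonneg (zv A.a3)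
  have he : (0 : ℤ) ≤ (A.e : ℤ) := by positivity
  refine ⟨?_, ?_, ?_, ?_⟩ <;> linarith

lemma bound_products {p q r s : ℤ} (hp : 0 ≤ p) (hq : 0 ≤ q) (hr : 0 ≤ r) (hs : 0 ≤ s)
    (h : (p + q) * (r + s) ≤ 18889465931478580854784) {u v : ℤ} (hu : |u| ≤ p + q) (hv : |v| ≤ r + s) :
    |u * v| ≤ 18889465931478580854784 := by
  rw [abs_mul]
  calc |u| * |v| ≤ (p + q) * (r + s) := by
        apply mul_le_mul hu hv (abs_nonneg _) (by positivity)
    _ ≤ _ := h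

/-- The sum of two offset numbers close to `B` has no truncation. -/
lemma oadd_like {x y : ℕ} (hx : |zv x| ≤ 70368744177665) (hy : |zv y| ≤ 70368744177665) :
    zv (Nat.sub (Nat.add x y) 281474976710656) = zv x + zv y := by
  unfold zv at *
  rw [abs_le] at hx hy
  show ((x + y - 281474976710656 : ℕ) : ℤ) - 281474976710656 = _
  have : 281474976710656 ≤ x + y := by omega
  omega

/-- Soundness of multiplication. -/
lemma AF.mulK_elim (h0 : |ξ0| ≤ 1) (h1 : |ξ1| ≤ 1) (h2 : |ξ2| ≤ 1) (h3 : |ξ3| ≤ 1)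
    {A B : AF} {a b : ℝ} (hA : AF.Rel ξ0 ξ1 ξ2 ξ3 A a) (hB : AF.Rel ξ0 ξ1 ξ2 ξ3 B b)
    {k : AF → Bool} (h : AF.mulK A B k = true) :
    ∃ C, AF.Rel ξ0 ξ1 ξ2 ξ3 C (a * b) ∧ k C = true := by
  simp only [AF.mulK, forceN_eq] at h
  obtain ⟨hg, hk⟩ := bool_guard h
  rw [ble_true_iff] at hg
  refine ⟨_, ?_, hk⟩
  have hg' : (((sabs A.c : ℕ) : ℤ) + ((AF.rad A : ℕ) : ℤ)) * (((sabs B.c : ℕ) : ℤ) + ((AF.rad B : ℕ) : ℤ))
      ≤ 18889465931478580854784 := by exact_mod_cast hg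
  have hcA : |zv A.c| ≤ (sabs A.c : ℤ) + (AF.rad A : ℕ) := by
    rw [sabs_eq]; have : (0:ℤ) ≤ (AF.rad A : ℕ) := by positivity
    linarith
  have hcB : |zv B.c| ≤ (sabs B.c : ℤ) + (AF.rad B : ℕ) := by
    rw [sabs_eq]; have : (0:ℤ) ≤ (AF.rad B : ℕ) := by positivity
    linarith
  have haux : ∀ {z : ℤ} {n : ℕ} {m : ℕ}, |z| ≤ (n : ℤ) → |z| ≤ (m : ℤ) + n := by
    intro z n m hz
    have : (0:ℤ) ≤ m := by positivity
    linarith
  obtain ⟨ra0, ra1, ra2, ra3⟩ := abs_a_le_rad A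
  obtain ⟨rb0, rb1, rb2, rb3⟩ := abs_a_le_rad B
  have P : ∀ {u v : ℤ}, |u| ≤ (sabs A.c : ℤ) + (AF.rad A : ℕ) → |v| ≤ (sabs B.c : ℤ) + (AF.rad B : ℕ) →
      |u * v| ≤ 18889465931478580854784 := fun hu hv =>
    bound_products (by positivity) (by positivity) (by positivity) (by positivity) hg' hu hv
  have P' : ∀ {u v : ℤ}, |u| ≤ (sabs B.c : ℤ) + (AF.rad B : ℕ) → |v| ≤ (sabs A.c : ℤ) + (AF.rad A : ℕ) →
      |u * v| ≤ 18889465931478580854784 := fun hu hv => by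
    rw [mul_comm]; exact P hv hu
  obtain ⟨d0, d0p, d0q, d0e, d0b⟩ := smul_spec A.c B.c (P hcA hcB)
  obtain ⟨d1, d1p, d1q, d1e, d1b⟩ := smul_spec A.c B.a0 (P hcA (haux rb0))
  obtain ⟨d2, d2p, d2q, d2e, d2b⟩ := smul_spec B.c A.a0 (P' hcB (haux ra0))
  obtain ⟨d3, d3p, d3q, d3e, d3b⟩ := smul_spec A.c B.a1 (P hcA (haux rb1))
  obtain ⟨d4, d4p, d4q, d4e, d4b⟩ := smul_spec B.c A.a1 (P' hcB (haux ra1))
  obtain ⟨d5, d5p, d5q, d5e, d5b⟩ := smul_spec A.c B.a2 (P hcA (haux rb2))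
  obtain ⟨d6, d6p, d6q, d6e, d6b⟩ := smul_spec B.c A.a2 (P' hcB (haux ra2))
  obtain ⟨d7, d7p, d7q, d7e, d7b⟩ := smul_spec A.c B.a3 (P hcA (haux rb3))
  obtain ⟨d8, d8p, d8q, d8e, d8b⟩ := smul_spec B.c A.a3 (P' hcB (haux ra3))
  have rvadd : ∀ {x y : ℕ}, |zv x| ≤ 70368744177665 → |zv y| ≤ 70368744177665 →
      rv (Nat.sub (Nat.add x y) 281474976710656) = rv x + rv y := by
    intro x y hx hy
    unfold rv
    rw [oadd_like hx hy]
    push_cast; ring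
  unfold AF.Rel AF.lin
  simp only []
  rw [rvadd d1b d2b, rvadd d3b d4b, rvadd d5b d6b, rvadd d7b d8b, d0e, d1e, d2e, d3e, d4e, d5e, d6e, d7e, d8e]
  -- notation
  set ca := rv A.c
  set cb := rv B.c
  have cA := rel_center h0 h1 h2 h3 hA
  have cB := rel_center h0 h1 h2 h3 hB
  unfold AF.Rel AF.lin at hA hB
  set la := rv A.a0 * ξ0 + rv A.a1 * ξ1 + rv A.a2 * ξ2 + rv A.a3 * ξ3 with hla
  set lb := rv B.a0 * ξ0 + rv B.a1 * ξ1 + rv B.a2 * ξ2 + rv B.a3 * ξ3 with hlb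
  have hA' : |a - (ca + la)| ≤ (A.e : ℝ) / 268435456 := by
    have : a - (ca + la) = a - (ca + rv A.a0 * ξ0 + rv A.a1 * ξ1 + rv A.a2 * ξ2 + rv A.a3 * ξ3) := by
      rw [hla]; ring
    rw [this]; exact hA
  have hB' : |b - (cb + lb)| ≤ (B.e : ℝ) / 268435456 := by
    have : b - (cb + lb) = b - (cb + rv B.a0 * ξ0 + rv B.a1 * ξ1 + rv B.a2 * ξ2 + rv B.a3 * ξ3) := by
      rw [hlb]; ring
    rw [this]; exact hB
  set Da := a - (ca + la) with hDa
  set Db := b - (cb + lb) with hDb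
  set na := a - ca with hna
  set nb := b - cb with hnb
  have expand : a * b - (ca * cb - d0 / 268435456
      + (ca * rv B.a0 - d1 / 268435456 + (cb * rv A.a0 - d2 / 268435456)) * ξ0
      + (ca * rv B.a1 - d3 / 268435456 + (cb * rv A.a1 - d4 / 268435456)) * ξ1
      + (ca * rv B.a2 - d5 / 268435456 + (cb * rv A.a2 - d6 / 268435456)) * ξ2
      + (ca * rv B.a3 - d7 / 268435456 + (cb * rv A.a3 - d8 / 268435456)) * ξ3)
      = ca * Db + cb * Da + na * nb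
        + (d0 + (d1 + d2) * ξ0 + (d3 + d4) * ξ1 + (d5 + d6) * ξ2 + (d7 + d8) * ξ3) / 268435456 := by
    rw [hDa, hDb, hna, hnb, hla, hlb]; ring
  rw [expand]
  have bc1 : |ca * Db| ≤ ((sabs A.c : ℕ) : ℝ) * B.e / 72057594037927936 := by
    rw [abs_mul]
    have : |ca| = ((sabs A.c : ℕ) : ℝ) / 268435456 := by
      show |rv A.c| = _
      unfold rv; rw [abs_div, sabs_real]; norm_num
    rw [this]
    calc ((sabs A.c : ℕ) : ℝ) / 268435456 * |Db| ≤ ((sabs A.c : ℕ) : ℝ) / 268435456 * ((B.e : ℝ) / 268435456) := by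
          gcongr
      _ = _ := by ring
  have bc2 : |cb * Da| ≤ ((sabs B.c : ℕ) : ℝ) * A.e / 72057594037927936 := by
    rw [abs_mul]
    have : |cb| = ((sabs B.c : ℕ) : ℝ) / 268435456 := by
      show |rv B.c| = _
      unfold rv; rw [abs_div, sabs_real]; norm_num
    rw [this]
    calc ((sabs B.c : ℕ) : ℝ) / 268435456 * |Da| ≤ ((sabs B.c : ℕ) : ℝ) / 268435456 * ((A.e : ℝ) / 268435456) := by
          gcongr
      _ = _ := by ring
  have bc3 : |na * nb| ≤ ((AF.rad A : ℕ) : ℝ) * (AF.rad B : ℕ) / 72057594037927936 := by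
    rw [abs_mul]
    calc |na| * |nb| ≤ (((AF.rad A : ℕ) : ℝ) / 268435456) * (((AF.rad B : ℕ) : ℝ) / 268435456) := by
          apply mul_le_mul cA cB (abs_nonneg _) (by positivity)
      _ = _ := by ring
  have bd : |(d0 + (d1 + d2) * ξ0 + (d3 + d4) * ξ1 + (d5 + d6) * ξ2 + (d7 + d8) * ξ3) / 268435456|
      ≤ 9 / 268435456 := by
    rw [abs_div]
    have : |(268435456 : ℝ)| = 268435456 := by norm_num
    rw [this]
    gcongr
    have b0 : |(d1 + d2) * ξ0| ≤ 2 := by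
      rw [abs_mul]
      have : |d1 + d2| ≤ 2 := by rw [abs_le]; constructor <;> linarith
      calc |d1 + d2| * |ξ0| ≤ 2 * 1 := by apply mul_le_mul this h0 (abs_nonneg _) (by norm_num)
        _ = 2 := by norm_num
    have b1 : |(d3 + d4) * ξ1| ≤ 2 := by
      rw [abs_mul]
      have : |d3 + d4| ≤ 2 := by rw [abs_le]; constructor <;> linarith
      calc |d3 + d4| * |ξ1| ≤ 2 * 1 := by apply mul_le_mul this h1 (abs_nonneg _) (by norm_num)
        _ = 2 := by norm_num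
    have b2 : |(d5 + d6) * ξ2| ≤ 2 := by
      rw [abs_mul]
      have : |d5 + d6| ≤ 2 := by rw [abs_le]; constructor <;> linarith
      calc |d5 + d6| * |ξ2| ≤ 2 * 1 := by apply mul_le_mul this h2 (abs_nonneg _) (by norm_num)
        _ = 2 := by norm_num
    have b3 : |(d7 + d8) * ξ3| ≤ 2 := by
      rw [abs_mul]
      have : |d7 + d8| ≤ 2 := by rw [abs_le]; constructor <;> linarith
      calc |d7 + d8| * |ξ3| ≤ 2 * 1 := by apply mul_le_mul this h3 (abs_nonneg _) (by norm_num)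
        _ = 2 := by norm_num
    rw [abs_le] at b0 b1 b2 b3 ⊢
    constructor <;> linarith [b0.1, b0.2, b1.1, b1.2, b2.1, b2.2, b3.1, b3.2]
  have pm1 := pmul_ge (sabs A.c) B.e
  have pm2 := pmul_ge (sabs B.c) A.e
  have pm3 := pmul_ge (AF.rad A) (AF.rad B)
  have etotal : (((pmul (sabs A.c) B.e + pmul (sabs B.c) A.e + pmul (AF.rad A) (AF.rad B) + 12 : ℕ) : ℕ) : ℝ) / 268435456
      = ((pmul (sabs A.c) B.e : ℝ) + (pmul (sabs B.c) A.e : ℝ) + (pmul (AF.rad A) (AF.rad B) : ℝ) + 12) / 268435456 := by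
    push_cast; ring
  show _ ≤ (((pmul (sabs A.c) B.e + pmul (sabs B.c) A.e + pmul (AF.rad A) (AF.rad B) + 12 : ℕ) : ℕ) : ℝ) / 268435456
  rw [etotal]
  have tri := abs_add_le (ca * Db + cb * Da + na * nb)
    ((d0 + (d1 + d2) * ξ0 + (d3 + d4) * ξ1 + (d5 + d6) * ξ2 + (d7 + d8) * ξ3) / 268435456)
  have tri2 := abs_add_le (ca * Db + cb * Da) (na * nb)
  have tri3 := abs_add_le (ca * Db) (cb * Da)
  have e1 := pmul_scaled (sabs A.c) B.e
  have e2 := pmul_scaled (sabs B.c) A.e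
  have e3 := pmul_scaled (AF.rad A) (AF.rad B)
  have split : ((pmul (sabs A.c) B.e : ℝ) + (pmul (sabs B.c) A.e : ℝ) + (pmul (AF.rad A) (AF.rad B) : ℝ) + 12) / 268435456
      = ((pmul (sabs A.c) B.e : ℝ) + 1) / 268435456 + ((pmul (sabs B.c) A.e : ℝ) + 1) / 268435456
        + ((pmul (AF.rad A) (AF.rad B) : ℝ) + 1) / 268435456 + 9 / 268435456 := by ring
  rw [split]
  linarith



lemma and5_elim {a b c d e : Bool} (h : and5 a b c d e = true) :
    a = true ∧ b = true ∧ c = true ∧ d = true ∧ e = true := by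
  cases a <;> cases b <;> cases c <;> cases d <;> cases e <;> simp_all [and5]

lemma rv_oadd {x y : ℕ} (h : gadd x y = true) : rv (oadd x y) = rv x + rv y := by
  have h' : 281474976710656 ≤ x + y := (ble_true_iff _ _).1 h
  have : zv (oadd x y) = zv x + zv y := by
    unfold zv
    show ((x + y - 281474976710656 : ℕ) : ℤ) - 281474976710656 = _
    omega
  unfold rv; rw [this]; push_cast; ring

lemma rv_osub {x y : ℕ} (h : gsub x y = true) : rv (osub x y) = rv x - rv y := by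
  have h' : y ≤ x + 281474976710656 := (ble_true_iff _ _).1 h
  have : zv (osub x y) = zv x - zv y := by
    unfold zv
    show ((x + 281474976710656 - y : ℕ) : ℤ) - 281474976710656 = _
    omega
  unfold rv; rw [this]; push_cast; ring

/-- Soundness of addition. -/
lemma AF.addK_elim {A B : AF} {a b : ℝ} (hA : AF.Rel ξ0 ξ1 ξ2 ξ3 A a) (hB : AF.Rel ξ0 ξ1 ξ2 ξ3 B b)
    {k : AF → Bool} (h : AF.addK A B k = true) :
    ∃ C, AF.Rel ξ0 ξ1 ξ2 ξ3 C (a + b) ∧ k C = true := by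
  simp only [AF.addK, forceN_eq] at h
  obtain ⟨hg, hk⟩ := bool_guard h
  obtain ⟨g0, g1, g2, g3, g4⟩ := and5_elim hg
  refine ⟨_, ?_, hk⟩
  unfold AF.Rel AF.lin at hA hB ⊢
  simp only []
  rw [rv_oadd g0, rv_oadd g1, rv_oadd g2, rv_oadd g3, rv_oadd g4]
  have e : ((A.e + B.e : ℕ) : ℝ) / 268435456 = (A.e : ℝ) / 268435456 + (B.e : ℝ) / 268435456 := by
    push_cast; ring
  show _ ≤ ((A.e + B.e : ℕ) : ℝ) / 268435456
  rw [e]
  rw [abs_le] at hA hB ⊢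
  constructor <;> nlinarith [hA.1, hA.2, hB.1, hB.2]

/-- Soundness of subtraction. -/
lemma AF.subK_elim {A B : AF} {a b : ℝ} (hA : AF.Rel ξ0 ξ1 ξ2 ξ3 A a) (hB : AF.Rel ξ0 ξ1 ξ2 ξ3 B b)
    {k : AF → Bool} (h : AF.subK A B k = true) :
    ∃ C, AF.Rel ξ0 ξ1 ξ2 ξ3 C (a - b) ∧ k C = true := by
  simp only [AF.subK, forceN_eq] at h
  obtain ⟨hg, hk⟩ := bool_guard h
  obtain ⟨g0, g1, g2, g3, g4⟩ := and5_elim hg
  refine ⟨_, ?_, hk⟩
  unfold AF.Rel AF.lin at hA hB ⊢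
  simp only []
  rw [rv_osub g0, rv_osub g1, rv_osub g2, rv_osub g3, rv_osub g4]
  have e : ((A.e + B.e : ℕ) : ℝ) / 268435456 = (A.e : ℝ) / 268435456 + (B.e : ℝ) / 268435456 := by
    push_cast; ring
  show _ ≤ ((A.e + B.e : ℕ) : ℝ) / 268435456
  rw [e]
  rw [abs_le] at hA hB ⊢
  constructor <;> nlinarith [hA.1, hA.2, hB.1, hB.2]

lemma abs_rv (x : ℕ) : |rv x| = ((sabs x : ℕ) : ℝ) / 268435456 := by
  unfold rv; rw [abs_div, sabs_real]; norm_num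

/-- Soundness of multiplication by a constant. -/
lemma AF.scalK_elim (h0 : |ξ0| ≤ 1) (h1 : |ξ1| ≤ 1) (h2 : |ξ2| ≤ 1) (h3 : |ξ3| ≤ 1)
    {q : ℕ} {A : AF} {a : ℝ} (hA : AF.Rel ξ0 ξ1 ξ2 ξ3 A a)
    {k : AF → Bool} (h : AF.scalK q A k = true) :
    ∃ C, AF.Rel ξ0 ξ1 ξ2 ξ3 C (rv q * a) ∧ k C = true := by
  simp only [AF.scalK, forceN_eq] at h
  obtain ⟨hg, hk⟩ := bool_guard h
  rw [ble_true_iff] at hg
  refine ⟨_, ?_, hk⟩
  have hg' : ((sabs q : ℕ) : ℤ) * (((sabs A.c : ℕ) : ℤ) + ((AF.rad A : ℕ) : ℤ))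
      ≤ 18889465931478580854784 := by exact_mod_cast hg
  have Q : ∀ {v : ℤ}, |v| ≤ (sabs A.c : ℤ) + (AF.rad A : ℕ) →
      |zv q * v| ≤ 18889465931478580854784 := by
    intro v hv
    rw [abs_mul, ← sabs_eq]
    calc ((sabs q : ℕ) : ℤ) * |v| ≤ ((sabs q : ℕ) : ℤ) * (((sabs A.c : ℕ) : ℤ) + ((AF.rad A : ℕ) : ℤ)) := by
          apply mul_le_mul_of_nonneg_left hv (by positivity)
      _ ≤ _ := hg'
  have hcA : |zv A.c| ≤ (sabs A.c : ℤ) + (AF.rad A : ℕ) := by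
    rw [sabs_eq]; have : (0:ℤ) ≤ (AF.rad A : ℕ) := by positivity
    linarith
  have haux : ∀ {z : ℤ} {n : ℕ} {m : ℕ}, |z| ≤ (n : ℤ) → |z| ≤ (m : ℤ) + n := by
    intro z n m hz
    have : (0:ℤ) ≤ m := by positivity
    linarith
  obtain ⟨ra0, ra1, ra2, ra3⟩ := abs_a_le_rad A
  obtain ⟨d0, d0p, d0q, d0e, -⟩ := smul_spec q A.c (Q hcA)
  obtain ⟨d1, d1p, d1q, d1e, -⟩ := smul_spec q A.a0 (Q (haux ra0))
  obtain ⟨d2, d2p, d2q, d2e, -⟩ := smul_spec q A.a1 (Q (haux ra1))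
  obtain ⟨d3, d3p, d3q, d3e, -⟩ := smul_spec q A.a2 (Q (haux ra2))
  obtain ⟨d4, d4p, d4q, d4e, -⟩ := smul_spec q A.a3 (Q (haux ra3))
  unfold AF.Rel AF.lin at hA ⊢
  simp only []
  rw [d0e, d1e, d2e, d3e, d4e]
  set la := rv A.c + rv A.a0 * ξ0 + rv A.a1 * ξ1 + rv A.a2 * ξ2 + rv A.a3 * ξ3 with hla
  have expand : rv q * a - (rv q * rv A.c - d0 / 268435456 + (rv q * rv A.a0 - d1 / 268435456) * ξ0
      + (rv q * rv A.a1 - d2 / 268435456) * ξ1 + (rv q * rv A.a2 - d3 / 268435456) * ξ2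
      + (rv q * rv A.a3 - d4 / 268435456) * ξ3)
      = rv q * (a - la) + (d0 + d1 * ξ0 + d2 * ξ1 + d3 * ξ2 + d4 * ξ3) / 268435456 := by
    rw [hla]; ring
  rw [expand]
  have b1 : |rv q * (a - la)| ≤ ((sabs q : ℕ) : ℝ) * A.e / 72057594037927936 := by
    rw [abs_mul, abs_rv]
    calc ((sabs q : ℕ) : ℝ) / 268435456 * |a - la|
        ≤ ((sabs q : ℕ) : ℝ) / 268435456 * ((A.e : ℝ) / 268435456) := by gcongr
      _ = _ := by ring
  have e1 := pmul_scaled (sabs q) A.e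
  have aux : ∀ {d ξ : ℝ}, 0 ≤ d → d ≤ 1 → |ξ| ≤ 1 → |d * ξ| ≤ 1 := by
    intro d ξ hd hd1 hξ
    rw [abs_mul, abs_of_nonneg hd]
    calc d * |ξ| ≤ 1 * 1 := by apply mul_le_mul hd1 hξ (abs_nonneg _) (by norm_num)
      _ = 1 := by norm_num
  have b2 : |(d0 + d1 * ξ0 + d2 * ξ1 + d3 * ξ2 + d4 * ξ3) / 268435456| ≤ 5 / 268435456 := by
    rw [abs_div]
    have : |(268435456 : ℝ)| = 268435456 := by norm_num
    rw [this]
    gcongr
    have a1 := aux d1p d1q h0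
    have a2 := aux d2p d2q h1
    have a3 := aux d3p d3q h2
    have a4 := aux d4p d4q h3
    rw [abs_le] at a1 a2 a3 a4 ⊢
    constructor <;> linarith [a1.1, a1.2, a2.1, a2.2, a3.1, a3.2, a4.1, a4.2]
  have tri := abs_add_le (rv q * (a - la)) ((d0 + d1 * ξ0 + d2 * ξ1 + d3 * ξ2 + d4 * ξ3) / 268435456)
  have etotal : (((pmul (sabs q) A.e + 6 : ℕ) : ℕ) : ℝ) / 268435456
      = ((pmul (sabs q) A.e : ℝ) + 1) / 268435456 + 5 / 268435456 := by
    push_cast; ring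
  show _ ≤ (((pmul (sabs q) A.e + 6 : ℕ) : ℕ) : ℝ) / 268435456
  rw [etotal]
  linarith

/-- Test for nonnegativity. -/
lemma AF.nonneg_of (h0 : |ξ0| ≤ 1) (h1 : |ξ1| ≤ 1) (h2 : |ξ2| ≤ 1) (h3 : |ξ3| ≤ 1)
    {A : AF} {a : ℝ} (hA : AF.Rel ξ0 ξ1 ξ2 ξ3 A a) (h : AF.nonnegB A = true) : 0 ≤ a := by
  have c := rel_center h0 h1 h2 h3 hA
  have h' : 281474976710656 + AF.rad A ≤ A.c := (ble_true_iff _ _).1 h
  have : ((AF.rad A : ℕ) : ℝ) + 281474976710656 ≤ (A.c : ℝ) := by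
    have : ((281474976710656 + AF.rad A : ℕ) : ℝ) ≤ (A.c : ℝ) := by exact_mod_cast h'
    push_cast at this; linarith
  have hrv : ((AF.rad A : ℕ) : ℝ) / 268435456 ≤ rv A.c := by
    unfold rv zv
    push_cast
    apply div_le_div_of_nonneg_right _ (by norm_num)
    linarith
  rw [abs_le] at c
  linarith [c.1]

/-- Test for negativity. -/
lemma AF.neg_of (h0 : |ξ0| ≤ 1) (h1 : |ξ1| ≤ 1) (h2 : |ξ2| ≤ 1) (h3 : |ξ3| ≤ 1)
    {A : AF} {a : ℝ} (hA : AF.Rel ξ0 ξ1 ξ2 ξ3 A a) (h : AF.negB A = true) : a < 0 := by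
  have c := rel_center h0 h1 h2 h3 hA
  have h' : A.c + AF.rad A + 1 ≤ 281474976710656 := (ble_true_iff _ _).1 h
  have : (A.c : ℝ) + ((AF.rad A : ℕ) : ℝ) + 1 ≤ 281474976710656 := by
    exact_mod_cast h'
  have hrv : rv A.c + ((AF.rad A : ℕ) : ℝ) / 268435456 < 0 := by
    unfold rv zv
    push_cast
    have : ((A.c : ℝ) - 281474976710656) / 268435456 + ((AF.rad A : ℕ) : ℝ) / 268435456
        = ((A.c : ℝ) - 281474976710656 + ((AF.rad A : ℕ) : ℝ)) / 268435456 := by ring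
    rw [this]
    apply div_neg_of_neg_of_pos _ (by norm_num)
    linarith
  rw [abs_le] at c
  linarith [c.2]


lemma nat_div_bounds (a b : ℕ) (hb : 0 < b) :
    ((a / b : ℕ) : ℝ) ≤ (a : ℝ) / b ∧ (a : ℝ) / b ≤ ((a / b : ℕ) : ℝ) + 1 := by
  constructor
  · exact Nat.cast_div_le
  · have h1 : a < b * (a / b + 1) := Nat.lt_mul_div_succ a hb
    have h2 : (a : ℝ) < b * (((a / b : ℕ) : ℝ) + 1) := by exact_mod_cast h1
    have hb' : (0 : ℝ) < b := by exact_mod_cast hb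
    rw [div_le_iff₀ hb']
    nlinarith

lemma pmul_eq (u v : ℕ) : pmul u v = (u * v) / 268435456 := by
  show (u * v) >>> 28 = _
  rw [Nat.shiftRight_eq_div_pow]

/-- The real-number core of the soundness of the reciprocal.  `P` stands for `2 ^ 28`. -/
lemma inv_core {P y yc la δ T T2 f D E1 E2 E3 : ℝ} (hP : 0 < P) (hy : 0 < y)
    (hyd : y = yc + la + δ) (hT2a : T2 ≤ T ^ 2) (hT2b : T ^ 2 ≤ T2 + 1 / P) (hT20 : 0 ≤ T2)
    (hf0 : 0 ≤ f) (hf1 : f ≤ 1) (hD : |D| ≤ 4)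
    (hE1 : y / P ≤ E1) (hE2 : T2 * |δ| ≤ E2)
    (hE3 : (1 - T * y) ^ 2 / y ≤ E3) :
    |y⁻¹ - (2 * T - (T2 * yc - f / P) - T2 * la - D / P)| ≤ E1 + E2 + 1 / P + 4 / P + E3 := by
  have hid : y⁻¹ = 2 * T - T ^ 2 * y + (1 - T * y) ^ 2 / y := by
    field_simp; ring
  have key : y⁻¹ - (2 * T - (T2 * yc - f / P) - T2 * la - D / P)
      = (T2 - T ^ 2) * y - T2 * δ - f / P + D / P + (1 - T * y) ^ 2 / y := by
    rw [hid, hyd]; ring
  rw [key]
  have a1 : |(T2 - T ^ 2) * y| ≤ E1 := by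
    rw [abs_mul, abs_of_pos hy]
    have : |T2 - T ^ 2| ≤ 1 / P := by
      rw [abs_le]; constructor <;> linarith
    calc |T2 - T ^ 2| * y ≤ 1 / P * y := by gcongr
      _ = y / P := by ring
      _ ≤ E1 := hE1
  have a2 : |T2 * δ| ≤ E2 := by rw [abs_mul, abs_of_nonneg hT20]; exact hE2
  have a3 : |f / P| ≤ 1 / P := by
    rw [abs_of_nonneg (by positivity)]; gcongr
  have a4 : |D / P| ≤ 4 / P := by
    rw [abs_div, abs_of_pos hP]; gcongr
  have a5 : |(1 - T * y) ^ 2 / y| ≤ E3 := by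
    rw [abs_of_nonneg (by positivity)]; exact hE3
  rw [abs_le] at a1 a2 a3 a4 a5 ⊢
  constructor <;> linarith [a1.1, a1.2, a2.1, a2.2, a3.1, a3.2, a4.1, a4.2, a5.1, a5.2]

set_option maxHeartbeats 4000000 in
/-- Soundness of the reciprocal: the affine form produced, with all quantities named. -/
lemma inv_elim_aux (h0 : |ξ0| ≤ 1) (h1 : |ξ1| ≤ 1) (h2 : |ξ2| ≤ 1) (h3 : |ξ3| ≤ 1)
    {A : AF} {y : ℝ} (hA : AF.Rel ξ0 ξ1 ξ2 ξ3 A y)
    {cv rr τ t2 tc w : ℕ} (hc : A.c = 281474976710656 + cv) (hcv : 1 ≤ cv) (hrr : rr = AF.rad A)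
    (h4 : 4 * rr ≤ cv) (hτ : τ = 72057594037927936 / cv) (ht2 : t2 = pmul τ τ)
    (htc : tc = pmul t2 cv) (g1 : tc ≤ 281474976710656 + 2 * τ) (g2 : t2 ≤ 281474976710656)
    (g3 : t2 * rr ≤ 18889465931478580854784)
    (hw : w = pmul τ rr + cv / 268435456 + 2) :
    AF.Rel ξ0 ξ1 ξ2 ξ3
      (AF.mk (281474976710656 + 2 * τ - tc) (smul (281474976710656 - t2) A.a0)
        (smul (281474976710656 - t2) A.a1) (smul (281474976710656 - t2) A.a2)
        (smul (281474976710656 - t2) A.a3)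
        (pmul t2 A.e + w * w / (cv - rr) + (cv + rr) / 268435456 + 12)) y⁻¹ := by
  have hP : (0 : ℝ) < 268435456 := by norm_num
  have hzc : zv A.c = (cv : ℤ) := by unfold zv; omega
  have hrvc : rv A.c = (cv : ℝ) / 268435456 := by unfold rv; rw [hzc]; norm_num
  have hcen := rel_center h0 h1 h2 h3 hA
  rw [← hrr, hrvc] at hcen
  have hcvR : (1 : ℝ) ≤ cv := by exact_mod_cast hcv
  have h4R : 4 * (rr : ℝ) ≤ cv := by exact_mod_cast h4
  have hrr0 : (0 : ℝ) ≤ rr := by positivity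
  have hcen' := abs_le.1 hcen
  have hylow : ((cv : ℝ) - rr) / 268435456 ≤ y := by
    have : ((cv : ℝ) - rr) / 268435456 = (cv : ℝ) / 268435456 - (rr : ℝ) / 268435456 := by ring
    rw [this]; linarith [hcen'.1]
  have hyhigh : y ≤ ((cv : ℝ) + rr) / 268435456 := by
    have : ((cv : ℝ) + rr) / 268435456 = (cv : ℝ) / 268435456 + (rr : ℝ) / 268435456 := by ring
    rw [this]; linarith [hcen'.2]
  have hdpos : (0 : ℝ) < (cv : ℝ) - rr := by linarith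
  have hy0 : 0 < y := lt_of_lt_of_le (by positivity) hylow
  -- the numbers
  obtain ⟨tau1, tau2⟩ := nat_div_bounds 72057594037927936 cv hcv
  rw [← hτ] at tau1 tau2
  obtain ⟨t21, t22⟩ := nat_div_bounds (τ * τ) 268435456 (by norm_num)
  rw [← pmul_eq, ← ht2] at t21 t22
  obtain ⟨tc1, tc2⟩ := nat_div_bounds (t2 * cv) 268435456 (by norm_num)
  rw [← pmul_eq, ← htc] at tc1 tc2
  push_cast at tau1 tau2 t21 t22 tc1 tc2
  -- the affine form
  have ht20 : (0 : ℝ) ≤ t2 := by positivity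
  have hzq : zv (281474976710656 - t2) = -(t2 : ℤ) := by unfold zv; omega
  have hrvq : rv (281474976710656 - t2) = -((t2 : ℝ) / 268435456) := by
    unfold rv; rw [hzq]; push_cast; ring
  have hzcc : zv (281474976710656 + 2 * τ - tc) = 2 * (τ : ℤ) - tc := by unfold zv; omega
  have hrvcc : rv (281474976710656 + 2 * τ - tc) = (2 * (τ : ℝ) - tc) / 268435456 := by
    unfold rv; rw [hzcc]; push_cast; ring
  obtain ⟨ra0, ra1, ra2, ra3⟩ := abs_a_le_rad A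
  rw [← hrr] at ra0 ra1 ra2 ra3
  have Q : ∀ {v : ℤ}, |v| ≤ (rr : ℤ) → |zv (281474976710656 - t2) * v| ≤ 18889465931478580854784 := by
    intro v hv
    rw [hzq, abs_mul, abs_neg, abs_of_nonneg (by positivity : (0 : ℤ) ≤ (t2 : ℤ))]
    calc (t2 : ℤ) * |v| ≤ (t2 : ℤ) * (rr : ℤ) := mul_le_mul_of_nonneg_left hv (by positivity)
      _ ≤ _ := by exact_mod_cast g3
  obtain ⟨d0, d0p, d0q, d0e, -⟩ := smul_spec (281474976710656 - t2) A.a0 (Q ra0)
  obtain ⟨d1, d1p, d1q, d1e, -⟩ := smul_spec (281474976710656 - t2) A.a1 (Q ra1)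
  obtain ⟨d2, d2p, d2q, d2e, -⟩ := smul_spec (281474976710656 - t2) A.a2 (Q ra2)
  obtain ⟨d3, d3p, d3q, d3e, -⟩ := smul_spec (281474976710656 - t2) A.a3 (Q ra3)
  unfold AF.Rel AF.lin at hA ⊢
  simp only []
  rw [hrvcc, d0e, d1e, d2e, d3e, hrvq]
  rw [hrvc] at hA
  -- names
  set T : ℝ := (τ : ℝ) / 268435456 with hT
  set T2 : ℝ := (t2 : ℝ) / 268435456 with hT2
  set yc : ℝ := (cv : ℝ) / 268435456 with hyc
  set la : ℝ := rv A.a0 * ξ0 + rv A.a1 * ξ1 + rv A.a2 * ξ2 + rv A.a3 * ξ3 with hla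
  set D : ℝ := d0 * ξ0 + d1 * ξ1 + d2 * ξ2 + d3 * ξ3 with hD
  set f : ℝ := (t2 : ℝ) * cv / 268435456 - tc with hf
  set δ : ℝ := y - (yc + la) with hδ
  have hδb : |δ| ≤ (A.e : ℝ) / 268435456 := by
    have : δ = y - (yc + rv A.a0 * ξ0 + rv A.a1 * ξ1 + rv A.a2 * ξ2 + rv A.a3 * ξ3) := by
      rw [hδ, hla]; ring
    rw [this]; exact hA
  have hrew : (2 * (τ : ℝ) - tc) / 268435456 + (-T2 * rv A.a0 - d0 / 268435456) * ξ0
      + (-T2 * rv A.a1 - d1 / 268435456) * ξ1 + (-T2 * rv A.a2 - d2 / 268435456) * ξ2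
      + (-T2 * rv A.a3 - d3 / 268435456) * ξ3
      = 2 * T - (T2 * yc - f / 268435456) - T2 * la - D / 268435456 := by
    rw [hT, hT2, hyc, hla, hD, hf]; ring
  rw [hrew]
  have hT0 : 0 ≤ T := by positivity
  have hT20 : 0 ≤ T2 := by positivity
  have hT2a : T2 ≤ T ^ 2 := by
    have : T ^ 2 = ((τ : ℝ) * τ / 268435456) / 268435456 := by rw [hT]; ring
    rw [this, hT2]
    exact div_le_div_of_nonneg_right t21 (by norm_num)
  have hT2b : T ^ 2 ≤ T2 + 1 / 268435456 := by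
    have : T ^ 2 = ((τ : ℝ) * τ / 268435456) / 268435456 := by rw [hT]; ring
    rw [this, hT2]
    have : (t2 : ℝ) / 268435456 + 1 / 268435456 = ((t2 : ℝ) + 1) / 268435456 := by ring
    rw [this]
    exact div_le_div_of_nonneg_right t22 (by norm_num)
  have hf0 : 0 ≤ f := by rw [hf]; linarith
  have hf1 : f ≤ 1 := by rw [hf]; linarith
  have aux : ∀ {d ξ : ℝ}, 0 ≤ d → d ≤ 1 → |ξ| ≤ 1 → |d * ξ| ≤ 1 := by
    intro d ξ hd hd1 hξ
    rw [abs_mul, abs_of_nonneg hd]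
    calc d * |ξ| ≤ 1 * 1 := by apply mul_le_mul hd1 hξ (abs_nonneg _) (by norm_num)
      _ = 1 := by norm_num
  have hDb : |D| ≤ 4 := by
    have a1 := aux d0p d0q h0
    have a2 := aux d1p d1q h1
    have a3 := aux d2p d2q h2
    have a4 := aux d3p d3q h3
    rw [abs_le] at a1 a2 a3 a4 ⊢
    rw [hD]
    constructor <;> linarith [a1.1, a1.2, a2.1, a2.2, a3.1, a3.2, a4.1, a4.2]
  -- the error terms
  obtain ⟨s1, s2⟩ := nat_div_bounds (cv + rr) 268435456 (by norm_num)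
  push_cast at s1 s2
  have hE1 : y / 268435456 ≤ (((cv + rr) / 268435456 : ℕ) + 1 : ℝ) / 268435456 := by
    apply div_le_div_of_nonneg_right _ (by norm_num)
    linarith
  have hE2 : T2 * |δ| ≤ ((pmul t2 A.e : ℝ) + 1) / 268435456 := by
    have := pmul_scaled t2 A.e
    calc T2 * |δ| ≤ T2 * ((A.e : ℝ) / 268435456) := by gcongr
      _ = (t2 : ℝ) * A.e / 72057594037927936 := by rw [hT2]; ring
      _ ≤ _ := this
  have hTyc : 1 - T * yc ≤ (cv : ℝ) / 72057594037927936 ∧ 0 ≤ 1 - T * yc := by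
    have e1 : T * yc = (τ : ℝ) * cv / 72057594037927936 := by rw [hT, hyc]; ring
    have hcvpos : (0 : ℝ) < cv := by linarith
    rw [le_div_iff₀ hcvpos] at tau1
    rw [div_le_iff₀ hcvpos] at tau2
    rw [e1]
    constructor
    · rw [sub_le_iff_le_add, ← add_div, one_le_div (by norm_num)]
      have e : ((τ : ℝ) + 1) * cv = cv + τ * cv := by ring
      linarith only [tau2, e]
    · rw [sub_nonneg, div_le_one (by norm_num)]
      exact tau1
  have hwb : |1 - T * y| ≤ (w : ℝ) / 268435456 := by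
    have hwr : (w : ℝ) = (pmul τ rr : ℝ) + ((cv / 268435456 : ℕ) : ℝ) + 2 := by
      rw [hw]; push_cast; ring
    obtain ⟨c1, c2⟩ := nat_div_bounds cv 268435456 (by norm_num)
    push_cast at c1 c2
    have p1 := pmul_scaled τ rr
    have b1 : T * |y - yc| ≤ (τ : ℝ) * rr / 72057594037927936 := by
      calc T * |y - yc| ≤ T * ((rr : ℝ) / 268435456) := by gcongr
        _ = _ := by rw [hT]; ring
    have b2 : (cv : ℝ) / 72057594037927936 ≤ (((cv / 268435456 : ℕ) : ℝ) + 1) / 268435456 := by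
      have : (cv : ℝ) / 72057594037927936 = ((cv : ℝ) / 268435456) / 268435456 := by
        rw [div_div]; norm_num
      rw [this]
      exact div_le_div_of_nonneg_right c2 (by norm_num)
    have split : (w : ℝ) / 268435456 = ((pmul τ rr : ℝ) + 1) / 268435456
        + (((cv / 268435456 : ℕ) : ℝ) + 1) / 268435456 := by
      rw [hwr]; ring
    have e2 : 1 - T * y = (1 - T * yc) - T * (y - yc) := by ring
    rw [e2, split]
    have b3 := abs_sub (1 - T * yc) (T * (y - yc))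
    rw [abs_mul, abs_of_nonneg hT0, abs_of_nonneg hTyc.2] at b3
    linarith [hTyc.1]
  have hE3 : (1 - T * y) ^ 2 / y ≤ (((w * w / (cv - rr) : ℕ) : ℝ) + 1) / 268435456 := by
    have hrrcv : rr ≤ cv := by omega
    have hdpos' : 0 < cv - rr := by omega
    obtain ⟨q1, q2⟩ := nat_div_bounds (w * w) (cv - rr) hdpos'
    rw [Nat.cast_sub hrrcv] at q1 q2
    push_cast at q1 q2
    have w0 : (0 : ℝ) ≤ (w : ℝ) / 268435456 := by positivity
    have sq : (1 - T * y) ^ 2 ≤ ((w : ℝ) / 268435456) ^ 2 := by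
      rw [← sq_abs]
      exact pow_le_pow_left₀ (abs_nonneg _) hwb 2
    have ylo : ((cv : ℝ) - rr) / 268435456 ≤ y := hylow
    have : (1 - T * y) ^ 2 / y ≤ ((w : ℝ) / 268435456) ^ 2 / (((cv : ℝ) - rr) / 268435456) := by
      apply div_le_div₀ (by positivity) sq (by positivity) ylo
    refine le_trans this ?_
    have e3 : ((w : ℝ) / 268435456) ^ 2 / (((cv : ℝ) - rr) / 268435456)
        = ((w : ℝ) * w / ((cv : ℝ) - rr)) / 268435456 := by
      field_simp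
    rw [e3]
    exact div_le_div_of_nonneg_right q2 (by norm_num)
  have core := inv_core (P := 268435456) hP hy0 (yc := yc) (la := la) (δ := δ) (by rw [hδ]; ring)
    hT2a hT2b hT20 hf0 hf1 hDb hE1 hE2 hE3
  refine le_trans core ?_
  apply le_of_eq_of_le (b := (((((cv + rr) / 268435456 : ℕ) : ℝ) + (pmul t2 A.e : ℝ)
    + ((w * w / (cv - rr) : ℕ) : ℝ) + 8) / 268435456))
  · ring
  · apply div_le_div_of_nonneg_right _ (by norm_num)
    push_cast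
    linarith

/-- Soundness of the reciprocal. -/
lemma AF.invK_elim (h0 : |ξ0| ≤ 1) (h1 : |ξ1| ≤ 1) (h2 : |ξ2| ≤ 1) (h3 : |ξ3| ≤ 1)
    {A : AF} {y : ℝ} (hA : AF.Rel ξ0 ξ1 ξ2 ξ3 A y)
    {k : AF → Bool} (h : AF.invK A k = true) :
    ∃ C, AF.Rel ξ0 ξ1 ξ2 ξ3 C y⁻¹ ∧ k C = true := by
  have hs : ∀ x : ℕ, Nat.shiftRight x 28 = x / 268435456 := by
    intro x
    show x >>> 28 = _
    rw [Nat.shiftRight_eq_div_pow]
  have hd : ∀ x z : ℕ, Nat.div x z = x / z := fun _ _ => rfl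
  simp only [AF.invK, forceN_eq, Nat.add_eq, Nat.sub_eq, Nat.mul_eq, hs, hd] at h
  obtain ⟨hg1, h⟩ := bool_guard h
  obtain ⟨hg11, hg12⟩ := bool_guard hg1
  rw [ble_true_iff] at hg11 hg12
  obtain ⟨hg2, hk⟩ := bool_guard h
  obtain ⟨hg21, hg2⟩ := bool_guard hg2
  obtain ⟨hg22, hg23⟩ := bool_guard hg2
  rw [ble_true_iff] at hg21 hg22 hg23
  refine ⟨_, ?_, hk⟩
  have hc : A.c = 281474976710656 + (A.c - 281474976710656) := by omega
  exact inv_elim_aux h0 h1 h2 h3 hA hc (by omega) rfl hg12 rfl rfl rfl hg21 hg22 hg23 rfl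


/-- Real value of an expression. -/
noncomputable def Ex.evR : Ex → List ℝ → ℝ
  | Ex.v n, env => env.getD n 0
  | Ex.c q, _ => rv q
  | Ex.a x y, env => Ex.evR x env + Ex.evR y env
  | Ex.s x y, env => Ex.evR x env - Ex.evR y env
  | Ex.m x y, env => Ex.evR x env * Ex.evR y env
  | Ex.k q x, env => rv q * Ex.evR x env
  | Ex.i x, env => (Ex.evR x env)⁻¹
  | Ex.l x y, env => Ex.evR y (Ex.evR x env :: env)

lemma rv_B : rv 281474976710656 = 0 := by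
  unfold rv zv; norm_num

lemma rel_const (q : ℕ) :
    AF.Rel ξ0 ξ1 ξ2 ξ3 (AF.mk q 281474976710656 281474976710656 281474976710656 281474976710656 0)
      (rv q) := by
  unfold AF.Rel AF.lin
  simp only [rv_B]
  norm_num

lemma nthAF_rel {env : List AF} {renv : List ℝ}
    (h : List.Forall₂ (AF.Rel ξ0 ξ1 ξ2 ξ3) env renv) (i : ℕ) :
    AF.Rel ξ0 ξ1 ξ2 ξ3 (nthAF env i) (renv.getD i 0) := by
  induction h generalizing i with
  | nil =>
    have e : ([] : List ℝ).getD i 0 = rv 281474976710656 := by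
      rw [rv_B]; simp
    rw [e]
    exact rel_const 281474976710656
  | cons hab _ ih =>
    cases i with
    | zero => exact hab
    | succ n => exact ih n

lemma Ex.ev_v (n : ℕ) (env : List AF) (k : AF → Bool) : Ex.ev (Ex.v n) env k = k (nthAF env n) := by
  unfold Ex.ev; rfl

lemma Ex.ev_c (q : ℕ) (env : List AF) (k : AF → Bool) : Ex.ev (Ex.c q) env k =
    k (AF.mk q 281474976710656 281474976710656 281474976710656 281474976710656 0) := by
  unfold Ex.ev; rfl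

lemma Ex.ev_a (x y : Ex) (env : List AF) (k : AF → Bool) : Ex.ev (Ex.a x y) env k =
    Ex.ev x env (fun X => Ex.ev y env (fun Y => AF.addK X Y k)) := by
  unfold Ex.ev; rfl

lemma Ex.ev_s (x y : Ex) (env : List AF) (k : AF → Bool) : Ex.ev (Ex.s x y) env k =
    Ex.ev x env (fun X => Ex.ev y env (fun Y => AF.subK X Y k)) := by
  unfold Ex.ev; rfl

lemma Ex.ev_m (x y : Ex) (env : List AF) (k : AF → Bool) : Ex.ev (Ex.m x y) env k =
    Ex.ev x env (fun X => Ex.ev y env (fun Y => AF.mulK X Y k)) := by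
  unfold Ex.ev; rfl

lemma Ex.ev_k (q : ℕ) (x : Ex) (env : List AF) (k : AF → Bool) : Ex.ev (Ex.k q x) env k =
    Ex.ev x env (fun X => AF.scalK q X k) := by
  unfold Ex.ev; rfl

lemma Ex.ev_i (x : Ex) (env : List AF) (k : AF → Bool) : Ex.ev (Ex.i x) env k =
    Ex.ev x env (fun X => AF.invK X k) := by
  unfold Ex.ev; rfl

lemma Ex.ev_l (x y : Ex) (env : List AF) (k : AF → Bool) : Ex.ev (Ex.l x y) env k =
    Ex.ev x env (fun X => Ex.ev y (X :: env) k) := by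
  unfold Ex.ev; rfl

/-- Soundness of the evaluation of expressions. -/
theorem Ex.ev_sound (h0 : |ξ0| ≤ 1) (h1 : |ξ1| ≤ 1) (h2 : |ξ2| ≤ 1) (h3 : |ξ3| ≤ 1) (e : Ex) :
    ∀ (env : List AF) (renv : List ℝ) (k : AF → Bool),
      List.Forall₂ (AF.Rel ξ0 ξ1 ξ2 ξ3) env renv → Ex.ev e env k = true →
      ∃ C, AF.Rel ξ0 ξ1 ξ2 ξ3 C (Ex.evR e renv) ∧ k C = true := by
  induction e with
  | v n =>
    intro env renv k hrel h
    rw [Ex.ev_v] at h
    exact ⟨nthAF env n, nthAF_rel hrel n, h⟩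
  | c q =>
    intro env renv k hrel h
    rw [Ex.ev_c] at h
    rw [Ex.evR]
    exact ⟨_, rel_const q, h⟩
  | a x y ihx ihy =>
    intro env renv k hrel h
    rw [Ex.ev_a] at h
    obtain ⟨X, hX, h⟩ := ihx env renv _ hrel h
    obtain ⟨Y, hY, h⟩ := ihy env renv _ hrel h
    rw [Ex.evR]
    exact AF.addK_elim hX hY h
  | s x y ihx ihy =>
    intro env renv k hrel h
    rw [Ex.ev_s] at h
    obtain ⟨X, hX, h⟩ := ihx env renv _ hrel h
    obtain ⟨Y, hY, h⟩ := ihy env renv _ hrel h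
    rw [Ex.evR]
    exact AF.subK_elim hX hY h
  | m x y ihx ihy =>
    intro env renv k hrel h
    rw [Ex.ev_m] at h
    obtain ⟨X, hX, h⟩ := ihx env renv _ hrel h
    obtain ⟨Y, hY, h⟩ := ihy env renv _ hrel h
    rw [Ex.evR]
    exact AF.mulK_elim h0 h1 h2 h3 hX hY h
  | k q x ihx =>
    intro env renv k hrel h
    rw [Ex.ev_k] at h
    obtain ⟨X, hX, h⟩ := ihx env renv _ hrel h
    rw [Ex.evR]
    exact AF.scalK_elim h0 h1 h2 h3 hX h
  | i x ihx =>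
    intro env renv k hrel h
    rw [Ex.ev_i] at h
    obtain ⟨X, hX, h⟩ := ihx env renv _ hrel h
    rw [Ex.evR]
    exact AF.invK_elim h0 h1 h2 h3 hX h
  | l x y ihx ihy =>
    intro env renv k hrel h
    rw [Ex.ev_l] at h
    obtain ⟨X, hX, h⟩ := ihx env renv _ hrel h
    rw [Ex.evR]
    exact ihy (X :: env) (Ex.evR x renv :: renv) k (List.Forall₂.cons hX hrel) h


/-- A point lies in a box. -/
def InBox (b : Bx) (x0 x1 x2 x3 : ℝ) : Prop :=
  |x0 - rv b.c0| ≤ (b.h0 : ℝ) / 268435456 ∧ |x1 - rv b.c1| ≤ (b.h1 : ℝ) / 268435456 ∧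
  |x2 - rv b.c2| ≤ (b.h2 : ℝ) / 268435456 ∧ |x3 - rv b.c3| ≤ (b.h3 : ℝ) / 268435456

lemma rv_add_h (h : ℕ) : rv (281474976710656 + h) = (h : ℝ) / 268435456 := by
  unfold rv zv; push_cast; ring

/-- Noise variable for a coordinate of a box. -/
lemma exists_noise {x c : ℝ} {h : ℕ} (hx : |x - c| ≤ (h : ℝ) / 268435456) :
    ∃ ξ : ℝ, |ξ| ≤ 1 ∧ x = c + (h : ℝ) / 268435456 * ξ := by
  by_cases hh : h = 0
  · subst hh
    refine ⟨0, by simp, ?_⟩
    have : |x - c| ≤ 0 := by simpa using hx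
    have h2 : x - c = 0 := abs_eq_zero.1 (le_antisymm this (abs_nonneg _))
    simp; linarith
  · have hp : (0 : ℝ) < (h : ℝ) / 268435456 := by
      have : 0 < h := Nat.pos_of_ne_zero hh
      positivity
    refine ⟨(x - c) / ((h : ℝ) / 268435456), ?_, ?_⟩
    · rw [abs_div, abs_of_pos hp, div_le_one hp]; exact hx
    · field_simp; ring

lemma Bx.envK_spec {b : Bx} {f : AF → AF → AF → AF → Bool} {x0 x1 x2 x3 : ℝ} (hb : InBox b x0 x1 x2 x3)
    (h : Bx.envK b f = true) :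
    ∃ (ξ0 ξ1 ξ2 ξ3 : ℝ) (A0 A1 A2 A3 : AF), |ξ0| ≤ 1 ∧ |ξ1| ≤ 1 ∧ |ξ2| ≤ 1 ∧ |ξ3| ≤ 1 ∧
      List.Forall₂ (AF.Rel ξ0 ξ1 ξ2 ξ3) [A0, A1, A2, A3] [x0, x1, x2, x3] ∧ f A0 A1 A2 A3 = true := by
  cases b with
  | mk c0 h0 c1 h1 c2 h2 c3 h3 =>
  simp only [Bx.envK, forceN_eq] at h
  obtain ⟨b0, b1, b2, b3⟩ := hb
  obtain ⟨ξ0, n0, e0⟩ := exists_noise b0
  obtain ⟨ξ1, n1, e1⟩ := exists_noise b1
  obtain ⟨ξ2, n2, e2⟩ := exists_noise b2
  obtain ⟨ξ3, n3, e3⟩ := exists_noise b3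
  refine ⟨ξ0, ξ1, ξ2, ξ3, _, _, _, _, n0, n1, n2, n3, ?_, h⟩
  have H : ∀ {c a0 a1 a2 a3 : ℕ} {y : ℝ}, y = rv c + rv a0 * ξ0 + rv a1 * ξ1 + rv a2 * ξ2 + rv a3 * ξ3 →
      AF.Rel ξ0 ξ1 ξ2 ξ3 (AF.mk c a0 a1 a2 a3 0) y := by
    intro c a0 a1 a2 a3 y hy
    unfold AF.Rel AF.lin
    simp only []
    rw [hy]; simp
  refine List.Forall₂.cons (H ?_) (List.Forall₂.cons (H ?_) (List.Forall₂.cons (H ?_)
    (List.Forall₂.cons (H ?_) List.Forall₂.nil)))
  · simp only [rv_B, Nat.add_eq, rv_add_h]; rw [e0]; ring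
  · simp only [rv_B, Nat.add_eq, rv_add_h]; rw [e1]; ring
  · simp only [rv_B, Nat.add_eq, rv_add_h]; rw [e2]; ring
  · simp only [rv_B, Nat.add_eq, rv_add_h]; rw [e3]; ring

lemma splitK_elim {c h : ℕ} {f g : ℕ → ℕ → Bool} {x : ℝ} (hx : |x - rv c| ≤ (h : ℝ) / 268435456)
    (H : splitK c h f g = true) :
    ∃ c' h' : ℕ, |x - rv c'| ≤ (h' : ℝ) / 268435456 ∧ (f c' h' = true ∨ g c' h' = true) := by
  simp only [splitK, forceN_eq] at H
  obtain ⟨hg, H⟩ := bool_guard H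
  obtain ⟨hf, hg'⟩ := bool_guard H
  rw [ble_true_iff] at hg
  have hh : h ≤ 2 * hup h := by
    have : hup h = (h + 1) / 2 := by
      show (h + 1) >>> 1 = _
      rw [Nat.shiftRight_eq_div_pow]
    omega
  have hhR : (h : ℝ) ≤ 2 * (hup h : ℝ) := by exact_mod_cast hh
  have hc1 : rv (Nat.sub c (hup h)) = rv c - (hup h : ℝ) / 268435456 := by
    have : zv (Nat.sub c (hup h)) = zv c - (hup h : ℤ) := by
      unfold zv
      show ((c - hup h : ℕ) : ℤ) - _ = _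
      omega
    unfold rv; rw [this]; push_cast; ring
  have hc2 : rv (Nat.add c (hup h)) = rv c + (hup h : ℝ) / 268435456 := by
    have : zv (Nat.add c (hup h)) = zv c + (hup h : ℤ) := by
      unfold zv
      show ((c + hup h : ℕ) : ℤ) - _ = _
      omega
    unfold rv; rw [this]; push_cast; ring
  rw [abs_le] at hx
  have hb : (h : ℝ) / 268435456 ≤ 2 * ((hup h : ℝ) / 268435456) := by
    rw [← mul_div_assoc]
    exact div_le_div_of_nonneg_right hhR (by norm_num)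
  have hh0 : (0 : ℝ) ≤ (hup h : ℝ) / 268435456 := by positivity
  by_cases hs : x ≤ rv c
  · refine ⟨_, _, ?_, Or.inl hf⟩
    rw [hc1, abs_le]
    constructor <;> linarith [hx.1, hx.2]
  · refine ⟨_, _, ?_, Or.inr hg'⟩
    rw [hc2, abs_le]
    have hs' := not_le.1 hs
    constructor <;> linarith [hx.1, hx.2]

lemma chk_l (T : AF → AF → AF → AF → Bool) (gs : List Ex) (b : Bx) :
    chk T gs Tr.l b = Bx.envK b T := by
  unfold chk; rfl

lemma chk_d (T : AF → AF → AF → AF → Bool) (gs : List Ex) (j : ℕ) (b : Bx) :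
    chk T gs (Tr.d j) b = Bx.envK b (fun x0 x1 x2 x3 =>
      Ex.ev (nthEx gs j) [x0, x1, x2, x3] AF.negB) := by
  unfold chk; rfl

lemma chk_s0 (T : AF → AF → AF → AF → Bool) (gs : List Ex) (x y : Tr) (c0 h0 c1 h1 c2 h2 c3 h3 : ℕ) :
    chk T gs (Tr.s0 x y) (Bx.mk c0 h0 c1 h1 c2 h2 c3 h3) =
      splitK c0 h0 (fun c h => chk T gs x (Bx.mk c h c1 h1 c2 h2 c3 h3))
        (fun c h => chk T gs y (Bx.mk c h c1 h1 c2 h2 c3 h3)) := by
  unfold chk; rfl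

lemma chk_s1 (T : AF → AF → AF → AF → Bool) (gs : List Ex) (x y : Tr) (c0 h0 c1 h1 c2 h2 c3 h3 : ℕ) :
    chk T gs (Tr.s1 x y) (Bx.mk c0 h0 c1 h1 c2 h2 c3 h3) =
      splitK c1 h1 (fun c h => chk T gs x (Bx.mk c0 h0 c h c2 h2 c3 h3))
        (fun c h => chk T gs y (Bx.mk c0 h0 c h c2 h2 c3 h3)) := by
  unfold chk; rfl

lemma chk_s2 (T : AF → AF → AF → AF → Bool) (gs : List Ex) (x y : Tr) (c0 h0 c1 h1 c2 h2 c3 h3 : ℕ) :
    chk T gs (Tr.s2 x y) (Bx.mk c0 h0 c1 h1 c2 h2 c3 h3) =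
      splitK c2 h2 (fun c h => chk T gs x (Bx.mk c0 h0 c1 h1 c h c3 h3))
        (fun c h => chk T gs y (Bx.mk c0 h0 c1 h1 c h c3 h3)) := by
  unfold chk; rfl

lemma chk_s3 (T : AF → AF → AF → AF → Bool) (gs : List Ex) (x y : Tr) (c0 h0 c1 h1 c2 h2 c3 h3 : ℕ) :
    chk T gs (Tr.s3 x y) (Bx.mk c0 h0 c1 h1 c2 h2 c3 h3) =
      splitK c3 h3 (fun c h => chk T gs x (Bx.mk c0 h0 c1 h1 c2 h2 c h))
        (fun c h => chk T gs y (Bx.mk c0 h0 c1 h1 c2 h2 c h)) := by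
  unfold chk; rfl

/-- Soundness of the certificate checker. -/
theorem chk_sound (K : Ex) (T : AF → AF → AF → AF → Bool)
    (hT : ∀ x0 x1 x2 x3, T x0 x1 x2 x3 = Ex.ev K [x0, x1, x2, x3] AF.nonnegB)
    (gs : List Ex) (t : Tr) :
    ∀ b : Bx, chk T gs t b = true → ∀ x0 x1 x2 x3 : ℝ, InBox b x0 x1 x2 x3 →
      (∀ j, 0 ≤ Ex.evR (nthEx gs j) [x0, x1, x2, x3]) → 0 ≤ Ex.evR K [x0, x1, x2, x3] := by
  induction t with
  | l =>
    intro b h x0 x1 x2 x3 hb _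
    rw [chk_l] at h
    obtain ⟨ξ0, ξ1, ξ2, ξ3, A0, A1, A2, A3, n0, n1, n2, n3, hrel, hf⟩ := Bx.envK_spec hb h
    rw [hT] at hf
    obtain ⟨C, hC, hk⟩ := Ex.ev_sound n0 n1 n2 n3 K _ _ _ hrel hf
    exact AF.nonneg_of n0 n1 n2 n3 hC hk
  | d j =>
    intro b h x0 x1 x2 x3 hb hv
    rw [chk_d] at h
    obtain ⟨ξ0, ξ1, ξ2, ξ3, A0, A1, A2, A3, n0, n1, n2, n3, hrel, hf⟩ := Bx.envK_spec hb h
    obtain ⟨C, hC, hk⟩ := Ex.ev_sound n0 n1 n2 n3 (nthEx gs j) _ _ _ hrel hf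
    exact absurd (hv j) (not_le.2 (AF.neg_of n0 n1 n2 n3 hC hk))
  | s0 x y ihx ihy =>
    intro b h x0 x1 x2 x3 hb hv
    cases b with
    | mk c0 h0 c1 h1 c2 h2 c3 h3 =>
      rw [chk_s0] at h
      obtain ⟨b0, b1, b2, b3⟩ := hb
      obtain ⟨c', h', hx, hfg⟩ := splitK_elim b0 h
      rcases hfg with hf | hg
      · exact ihx _ hf x0 x1 x2 x3 ⟨hx, b1, b2, b3⟩ hv
      · exact ihy _ hg x0 x1 x2 x3 ⟨hx, b1, b2, b3⟩ hv
  | s1 x y ihx ihy =>
    intro b h x0 x1 x2 x3 hb hv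
    cases b with
    | mk c0 h0 c1 h1 c2 h2 c3 h3 =>
      rw [chk_s1] at h
      obtain ⟨b0, b1, b2, b3⟩ := hb
      obtain ⟨c', h', hx, hfg⟩ := splitK_elim b1 h
      rcases hfg with hf | hg
      · exact ihx _ hf x0 x1 x2 x3 ⟨b0, hx, b2, b3⟩ hv
      · exact ihy _ hg x0 x1 x2 x3 ⟨b0, hx, b2, b3⟩ hv
  | s2 x y ihx ihy =>
    intro b h x0 x1 x2 x3 hb hv
    cases b with
    | mk c0 h0 c1 h1 c2 h2 c3 h3 =>
      rw [chk_s2] at h
      obtain ⟨b0, b1, b2, b3⟩ := hb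
      obtain ⟨c', h', hx, hfg⟩ := splitK_elim b2 h
      rcases hfg with hf | hg
      · exact ihx _ hf x0 x1 x2 x3 ⟨b0, b1, hx, b3⟩ hv
      · exact ihy _ hg x0 x1 x2 x3 ⟨b0, b1, hx, b3⟩ hv
  | s3 x y ihx ihy =>
    intro b h x0 x1 x2 x3 hb hv
    cases b with
    | mk c0 h0 c1 h1 c2 h2 c3 h3 =>
      rw [chk_s3] at h
      obtain ⟨b0, b1, b2, b3⟩ := hb
      obtain ⟨c', h', hx, hfg⟩ := splitK_elim b3 h
      rcases hfg with hf | hg
      · exact ihx _ hf x0 x1 x2 x3 ⟨b0, b1, b2, hx⟩ hv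
      · exact ihy _ hg x0 x1 x2 x3 ⟨b0, b1, b2, hx⟩ hv

end sound

end Vale.Agent.Lib.P154

namespace Vale.Agent.Lib.P154

/-- All points of a box satisfying the side conditions satisfy the main inequality. -/
def Good (K : Ex) (gs : List Ex) (b : Bx) : Prop :=
  ∀ x0 x1 x2 x3 : ℝ, InBox b x0 x1 x2 x3 →
    (∀ j, 0 ≤ Ex.evR (nthEx gs j) [x0, x1, x2, x3]) → 0 ≤ Ex.evR K [x0, x1, x2, x3]

lemma good_of_chk {K : Ex} {T : AF → AF → AF → AF → Bool}
    (hT : ∀ x0 x1 x2 x3, T x0 x1 x2 x3 = Ex.ev K [x0, x1, x2, x3] AF.nonnegB)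
    {gs : List Ex} {t : Tr} {b : Bx} (h : chk T gs t b = true) : Good K gs b :=
  chk_sound K T hT gs t b h

/-- Covering of an interval by two smaller intervals. -/
lemma interval_split {c h cl cr h' : ℕ} {x : ℝ} (e1 : h ≤ 2 * h') (e2 : cl + h' = c) (e3 : cr = c + h')
    (hx : |x - rv c| ≤ (h : ℝ) / 268435456) :
    |x - rv cl| ≤ (h' : ℝ) / 268435456 ∨ |x - rv cr| ≤ (h' : ℝ) / 268435456 := by
  have h1 : rv cl = rv c - (h' : ℝ) / 268435456 := by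
    subst e2; unfold rv zv; push_cast; ring
  have h2 : rv cr = rv c + (h' : ℝ) / 268435456 := by
    subst e3; unfold rv zv; push_cast; ring
  have hb : (h : ℝ) / 268435456 ≤ 2 * ((h' : ℝ) / 268435456) := by
    rw [← mul_div_assoc]
    apply div_le_div_of_nonneg_right _ (by norm_num)
    exact_mod_cast e1
  have hh0 : (0 : ℝ) ≤ (h' : ℝ) / 268435456 := by positivity
  rw [abs_le] at hx
  rw [h1, h2]
  by_cases hs : x ≤ rv c
  · left
    rw [abs_le]; constructor <;> linarith [hx.1, hx.2]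
  · right
    have hs' := not_le.1 hs
    rw [abs_le]; constructor <;> linarith [hx.1, hx.2]

lemma good_split0 {K : Ex} {gs : List Ex} {c0 h0 c1 h1 c2 h2 c3 h3 cl cr h' : ℕ} (e1 : h0 ≤ 2 * h')
    (e2 : cl + h' = c0) (e3 : cr = c0 + h') (hl : Good K gs (Bx.mk cl h' c1 h1 c2 h2 c3 h3))
    (hr : Good K gs (Bx.mk cr h' c1 h1 c2 h2 c3 h3)) : Good K gs (Bx.mk c0 h0 c1 h1 c2 h2 c3 h3) := by
  intro x0 x1 x2 x3 hb hv
  obtain ⟨b0, b1, b2, b3⟩ := hb
  rcases interval_split e1 e2 e3 b0 with h | h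
  · exact hl x0 x1 x2 x3 ⟨h, b1, b2, b3⟩ hv
  · exact hr x0 x1 x2 x3 ⟨h, b1, b2, b3⟩ hv

lemma good_split1 {K : Ex} {gs : List Ex} {c0 h0 c1 h1 c2 h2 c3 h3 cl cr h' : ℕ} (e1 : h1 ≤ 2 * h')
    (e2 : cl + h' = c1) (e3 : cr = c1 + h') (hl : Good K gs (Bx.mk c0 h0 cl h' c2 h2 c3 h3))
    (hr : Good K gs (Bx.mk c0 h0 cr h' c2 h2 c3 h3)) : Good K gs (Bx.mk c0 h0 c1 h1 c2 h2 c3 h3) := by
  intro x0 x1 x2 x3 hb hv
  obtain ⟨b0, b1, b2, b3⟩ := hb
  rcases interval_split e1 e2 e3 b1 with h | h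
  · exact hl x0 x1 x2 x3 ⟨b0, h, b2, b3⟩ hv
  · exact hr x0 x1 x2 x3 ⟨b0, h, b2, b3⟩ hv

lemma good_split2 {K : Ex} {gs : List Ex} {c0 h0 c1 h1 c2 h2 c3 h3 cl cr h' : ℕ} (e1 : h2 ≤ 2 * h')
    (e2 : cl + h' = c2) (e3 : cr = c2 + h') (hl : Good K gs (Bx.mk c0 h0 c1 h1 cl h' c3 h3))
    (hr : Good K gs (Bx.mk c0 h0 c1 h1 cr h' c3 h3)) : Good K gs (Bx.mk c0 h0 c1 h1 c2 h2 c3 h3) := by
  intro x0 x1 x2 x3 hb hv
  obtain ⟨b0, b1, b2, b3⟩ := hb
  rcases interval_split e1 e2 e3 b2 with h | h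
  · exact hl x0 x1 x2 x3 ⟨b0, b1, h, b3⟩ hv
  · exact hr x0 x1 x2 x3 ⟨b0, b1, h, b3⟩ hv

lemma good_split3 {K : Ex} {gs : List Ex} {c0 h0 c1 h1 c2 h2 c3 h3 cl cr h' : ℕ} (e1 : h3 ≤ 2 * h')
    (e2 : cl + h' = c3) (e3 : cr = c3 + h') (hl : Good K gs (Bx.mk c0 h0 c1 h1 c2 h2 cl h'))
    (hr : Good K gs (Bx.mk c0 h0 c1 h1 c2 h2 cr h')) : Good K gs (Bx.mk c0 h0 c1 h1 c2 h2 c3 h3) := by
  intro x0 x1 x2 x3 hb hv
  obtain ⟨b0, b1, b2, b3⟩ := hb
  rcases interval_split e1 e2 e3 b3 with h | h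
  · exact hl x0 x1 x2 x3 ⟨b0, b1, b2, h⟩ hv
  · exact hr x0 x1 x2 x3 ⟨b0, b1, b2, h⟩ hv

lemma nthEx_zero (a : Ex) (l : List Ex) : nthEx (a :: l) 0 = a := rfl
lemma nthEx_succ (a : Ex) (l : List Ex) (n : ℕ) : nthEx (a :: l) (n + 1) = nthEx l n := rfl
lemma nthEx_nil (n : ℕ) : nthEx [] n = Ex.c 281474976710656 := rfl
lemma nthAF_zero (a : AF) (l : List AF) : nthAF (a :: l) 0 = a := rfl
lemma nthAF_succ (a : AF) (l : List AF) (n : ℕ) : nthAF (a :: l) (n + 1) = nthAF l n := rfl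

end Vale.Agent.Lib.P154
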