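import Mathlib.Algebra.BigOperators.Fin
import Mathlib.Algebra.Order.BigOperators.Ring.Finset
import Mathlib.Analysis.SpecialFunctions.Pow.Real
import Mathlib.Data.Fintype.Pi
import Mathlib.Data.Real.Basic

/-!
The broadcasting process of the Potts channel on the rooted `d`-ary tree.
-/

namespace Vale.Agent.Lib.P154

/-- The `q`-state Potts channel with eigenvalue `lam`: the probability that the child has colour
`j` when the parent has colour `i`. -/
noncomputable def pottsChannel (q : ℕ) (lam : ℝ) (i j : Fin q) : ℝ :=
  lam * (if i = j then 1 else 0) + (1 - lam) / q

/-- The colourings of the vertices at depth `n` of the rooted `d`-ary tree, organized recursively: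
at depth `0` one colour (of the root); at depth `n + 1` one colouring of the vertices at depth `n`
of the subtree of each of the `d` children of the root. -/
def LeafConfig (q d : ℕ) : ℕ → Type
  | 0 => Fin q
  | n + 1 => Fin d → LeafConfig q d n

/-- There are finitely many colourings of the vertices at depth `n`. -/
instance instFintypeLeafConfig (q d : ℕ) : (n : ℕ) → Fintype (LeafConfig q d n)
  | 0 => inferInstanceAs (Fintype (Fin q))
  | n + 1 =>
    letI := instFintypeLeafConfig q d n
    inferInstanceAs (Fintype (Fin d → LeafConfig q d n))

/-- A colouring at depth `0` is the colour of the root. -/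
def rootColour {q d : ℕ} (s : LeafConfig q d 0) : Fin q := s

/-- `leafLik q d lam n i s` is the probability that the vertices at depth `n` carry the colouring
`s`, given that the root has colour `i`. Given the colour of the root, the subtrees of the `d`
children are independent; the colour of a child is obtained from the colour of the root through
the channel. -/
noncomputable def leafLik (q d : ℕ) (lam : ℝ) : (n : ℕ) → Fin q → LeafConfig q d n → ℝ
  | 0, i, s => if rootColour s = i then 1 else 0
  | n + 1, i, s => ∏ c : Fin d, ∑ j : Fin q, pottsChannel q lam i j * leafLik q d lam n j (s c)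

/-- The probability of the colouring `s` at depth `n` when the root colour is uniform. -/
noncomputable def leafProb (q d : ℕ) (lam : ℝ) (n : ℕ) (s : LeafConfig q d n) : ℝ :=
  ∑ i : Fin q, (1 / (q : ℝ)) * leafLik q d lam n i s

/-- The conditional probability that the root has colour `i` given the colouring `s` at depth `n`
(with the convention of division by zero, irrelevant for colourings of probability zero). -/
noncomputable def rootPosterior (q d : ℕ) (lam : ℝ) (n : ℕ) (s : LeafConfig q d n) (i : Fin q) : ℝ :=
  (1 / (q : ℝ)) * leafLik q d lam n i s / leafProb q d lam n s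

/-- The reconstruction quantity `a_n = E[ (1/2) ∑ i, |Pr(σ_ρ = i | σ_{L_n}) - 1/q| ]` on the rooted
`d`-ary tree. -/
noncomputable def reconstructionGap (q d : ℕ) (lam : ℝ) (n : ℕ) : ℝ :=
  ∑ s : LeafConfig q d n, leafProb q d lam n s *
    ((1 / 2) * ∑ i : Fin q, |rootPosterior q d lam n s i - 1 / (q : ℝ)|)

end Vale.Agent.Lib.P154
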