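import Vale.Agent.Lib.P154.Pot

/-!
Symmetries of the merge inequality, and its reduction to sorted messages and charts.
-/

namespace Vale.Agent.Lib.P154

lemma cb3_swap01 (x y z : ℝ) : cb3 y x z = cb3 x y z := by unfold cb3; ring
lemma cb3_swap12 (x y z : ℝ) : cb3 x z y = cb3 x y z := by unfold cb3; ring

lemma pot_swap01 (a b c x y z : ℝ) : pot a b c y x z = pot a b c x y z := by
  unfold pot; rw [sq3_swap01, cb3_swap01]

lemma pot_swap12 (a b c x y z : ℝ) : pot a b c x z y = pot a b c x y z := by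
  unfold pot; rw [sq3_swap12, cb3_swap12]

lemma mergeF_swap01 (a b c v0 v1 v2 w0 w1 w2 : ℝ) :
    mergeF a b c v1 v0 v2 w1 w0 w2 = mergeF a b c v0 v1 v2 w0 w1 w2 := by
  unfold mergeF
  have h1 : nrm v1 v0 v2 w1 w0 w2 = nrm v0 v1 v2 w0 w1 w2 := by unfold nrm; ring
  have h2 : ∀ x y, num v1 v0 v2 w1 w0 w2 x y = num v0 v1 v2 w0 w1 w2 x y := by
    intro x y; unfold num; ring
  rw [h1, h2, h2, h2, pot_swap01]

lemma mergeF_swap12 (a b c v0 v1 v2 w0 w1 w2 : ℝ) :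
    mergeF a b c v0 v2 v1 w0 w2 w1 = mergeF a b c v0 v1 v2 w0 w1 w2 := by
  unfold mergeF
  have h1 : nrm v0 v2 v1 w0 w2 w1 = nrm v0 v1 v2 w0 w1 w2 := by unfold nrm; ring
  have h2 : ∀ x y, num v0 v2 v1 w0 w2 w1 x y = num v0 v1 v2 w0 w1 w2 x y := by
    intro x y; unfold num; ring
  rw [h1, h2, h2, h2, pot_swap12]

lemma mergeF_comm (a b c v0 v1 v2 w0 w1 w2 : ℝ) :
    mergeF a b c w0 w1 w2 v0 v1 v2 = mergeF a b c v0 v1 v2 w0 w1 w2 := by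
  unfold mergeF
  have h1 : nrm w0 w1 w2 v0 v1 v2 = nrm v0 v1 v2 w0 w1 w2 := by unfold nrm; ring
  have h2 : ∀ x y, num w0 w1 w2 v0 v1 v2 x y = num v0 v1 v2 w0 w1 w2 y x := by
    intro x y; unfold num; ring
  rw [h1, h2, h2, h2]

lemma avgF_w_swap01 (a b c v0 v1 v2 w0 w1 w2 : ℝ) :
    avgF a b c v0 v1 v2 w1 w0 w2 = avgF a b c v0 v1 v2 w0 w1 w2 := by
  unfold avgF; ring

lemma avgF_w_swap12 (a b c v0 v1 v2 w0 w1 w2 : ℝ) :
    avgF a b c v0 v1 v2 w0 w2 w1 = avgF a b c v0 v1 v2 w0 w1 w2 := by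
  unfold avgF; ring

lemma avgF_v_swap01 (a b c v0 v1 v2 w0 w1 w2 : ℝ) :
    avgF a b c v1 v0 v2 w0 w1 w2 = avgF a b c v0 v1 v2 w0 w1 w2 := by
  unfold avgF
  rw [mergeF_swap01 a b c v0 v1 v2 w1 w0 w2, mergeF_swap01 a b c v0 v1 v2 w2 w0 w1,
    mergeF_swap01 a b c v0 v1 v2 w0 w1 w2, mergeF_swap01 a b c v0 v1 v2 w2 w1 w0,
    mergeF_swap01 a b c v0 v1 v2 w0 w2 w1, mergeF_swap01 a b c v0 v1 v2 w1 w2 w0]
  ring

lemma avgF_v_swap12 (a b c v0 v1 v2 w0 w1 w2 : ℝ) :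
    avgF a b c v0 v2 v1 w0 w1 w2 = avgF a b c v0 v1 v2 w0 w1 w2 := by
  unfold avgF
  rw [mergeF_swap12 a b c v0 v1 v2 w0 w2 w1, mergeF_swap12 a b c v0 v1 v2 w0 w1 w2,
    mergeF_swap12 a b c v0 v1 v2 w1 w2 w0, mergeF_swap12 a b c v0 v1 v2 w1 w0 w2,
    mergeF_swap12 a b c v0 v1 v2 w2 w1 w0, mergeF_swap12 a b c v0 v1 v2 w2 w0 w1]
  ring

lemma mergeF_rot (a b c v0 v1 v2 w0 w1 w2 : ℝ) :
    mergeF a b c v1 v2 v0 w1 w2 w0 = mergeF a b c v0 v1 v2 w0 w1 w2 := by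
  rw [mergeF_swap12 a b c v1 v0 v2 w1 w0 w2, mergeF_swap01]

lemma mergeF_rot2 (a b c v0 v1 v2 w0 w1 w2 : ℝ) :
    mergeF a b c v2 v0 v1 w2 w0 w1 = mergeF a b c v0 v1 v2 w0 w1 w2 := by
  rw [mergeF_swap01 a b c v0 v2 v1 w0 w2 w1, mergeF_swap12]

lemma mergeF_swap02 (a b c v0 v1 v2 w0 w1 w2 : ℝ) :
    mergeF a b c v2 v1 v0 w2 w1 w0 = mergeF a b c v0 v1 v2 w0 w1 w2 := by
  rw [mergeF_swap01 a b c v1 v2 v0 w1 w2 w0, mergeF_rot]

lemma avgF_comm (a b c v0 v1 v2 w0 w1 w2 : ℝ) :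
    avgF a b c w0 w1 w2 v0 v1 v2 = avgF a b c v0 v1 v2 w0 w1 w2 := by
  unfold avgF
  rw [mergeF_comm a b c v0 v1 v2 w0 w1 w2, mergeF_comm a b c v0 v2 v1 w0 w1 w2,
    mergeF_comm a b c v1 v0 v2 w0 w1 w2, mergeF_comm a b c v1 v2 v0 w0 w1 w2,
    mergeF_comm a b c v2 v0 v1 w0 w1 w2, mergeF_comm a b c v2 v1 v0 w0 w1 w2,
    mergeF_swap12 a b c v0 v1 v2 w0 w2 w1, mergeF_swap01 a b c v0 v1 v2 w1 w0 w2,
    mergeF_rot a b c v0 v1 v2 w2 w0 w1, mergeF_rot2 a b c v0 v1 v2 w1 w2 w0,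
    mergeF_swap02 a b c v0 v1 v2 w2 w1 w0]
  ring

/-- The inequality for the merge of two messages. -/
def MergeIneq (a b c ap bp cp t v0 v1 v2 w0 w1 w2 : ℝ) : Prop :=
  t * ((sq3 v0 v1 v2 + sq3 w0 w1 w2) * (sq3 v0 v1 v2 + sq3 w0 w1 w2))
    ≤ pot ap bp cp v0 v1 v2 + pot ap bp cp w0 w1 w2 - avgF a b c v0 v1 v2 w0 w1 w2

section params

variable {a b c ap bp cp t : ℝ}

lemma MergeIneq.v01 {v0 v1 v2 w0 w1 w2 : ℝ} (h : MergeIneq a b c ap bp cp t v0 v1 v2 w0 w1 w2) :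
    MergeIneq a b c ap bp cp t v1 v0 v2 w0 w1 w2 := by
  unfold MergeIneq at *
  rw [sq3_swap01 v0 v1 v2, pot_swap01 ap bp cp v0 v1 v2, avgF_v_swap01]; exact h

lemma MergeIneq.v12 {v0 v1 v2 w0 w1 w2 : ℝ} (h : MergeIneq a b c ap bp cp t v0 v1 v2 w0 w1 w2) :
    MergeIneq a b c ap bp cp t v0 v2 v1 w0 w1 w2 := by
  unfold MergeIneq at *
  rw [sq3_swap12 v0 v1 v2, pot_swap12 ap bp cp v0 v1 v2, avgF_v_swap12]; exact h

lemma MergeIneq.w01 {v0 v1 v2 w0 w1 w2 : ℝ} (h : MergeIneq a b c ap bp cp t v0 v1 v2 w0 w1 w2) :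
    MergeIneq a b c ap bp cp t v0 v1 v2 w1 w0 w2 := by
  unfold MergeIneq at *
  rw [sq3_swap01 w0 w1 w2, pot_swap01 ap bp cp w0 w1 w2, avgF_w_swap01]; exact h

lemma MergeIneq.w12 {v0 v1 v2 w0 w1 w2 : ℝ} (h : MergeIneq a b c ap bp cp t v0 v1 v2 w0 w1 w2) :
    MergeIneq a b c ap bp cp t v0 v1 v2 w0 w2 w1 := by
  unfold MergeIneq at *
  rw [sq3_swap12 w0 w1 w2, pot_swap12 ap bp cp w0 w1 w2, avgF_w_swap12]; exact h

lemma MergeIneq.comm {v0 v1 v2 w0 w1 w2 : ℝ} (h : MergeIneq a b c ap bp cp t v0 v1 v2 w0 w1 w2) :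
    MergeIneq a b c ap bp cp t w0 w1 w2 v0 v1 v2 := by
  unfold MergeIneq at *
  rw [avgF_comm, add_comm (sq3 w0 w1 w2), add_comm (pot ap bp cp w0 w1 w2)]; exact h

end params

/-- Reduction of a property of triples to sorted triples. -/
lemma sorted_wlog {Q : ℝ → ℝ → ℝ → Prop} (h01 : ∀ x y z, Q x y z → Q y x z)
    (h12 : ∀ x y z, Q x y z → Q x z y) (hs : ∀ x y z, y ≤ x → z ≤ y → Q x y z) :
    ∀ x y z, Q x y z := by
  intro x y z
  rcases le_total y x with h1 | h1 <;> rcases le_total z y with h2 | h2 <;>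
    rcases le_total z x with h3 | h3
  · exact hs x y z h1 h2
  · exact hs x y z h1 h2
  · exact h12 _ _ _ (hs x z y h3 h2)
  · exact h12 _ _ _ (h01 _ _ _ (hs z x y h3 h1))
  · exact h01 _ _ _ (hs y x z h1 h3)
  · exact h01 _ _ _ (h12 _ _ _ (hs y z x h2 h3))
  · exact h01 _ _ _ (h12 _ _ _ (h01 _ _ _ (hs z y x h2 h1)))
  · exact h01 _ _ _ (h12 _ _ _ (h01 _ _ _ (hs z y x h2 h1)))

/-- Positivity of the normalization for messages not reaching the boundary of the simplex. -/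
lemma nrm_pos {L v0 v1 v2 w0 w1 w2 : ℝ} (hL : L < 1) (hv : v0 + v1 + v2 = 0) (hw : w0 + w1 + w2 = 0)
    (hv0 : -L ≤ v0) (hv1 : -L ≤ v1) (hv2 : -L ≤ v2) (hw0 : -L ≤ w0) (hw1 : -L ≤ w1) (hw2 : -L ≤ w2) :
    0 < nrm v0 v1 v2 w0 w1 w2 := by
  have e : nrm v0 v1 v2 w0 w1 w2 = ((1 + v0) * (1 + w0) + (1 + v1) * (1 + w1) + (1 + v2) * (1 + w2)) / 3 := by
    unfold nrm
    have h1 : v2 = -v0 - v1 := by linarith
    have h2 : w2 = -w0 - w1 := by linarith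
    subst h1 h2
    ring
  rw [e]
  have p0 : 0 < (1 + v0) * (1 + w0) := mul_pos (by linarith) (by linarith)
  have p1 : 0 < (1 + v1) * (1 + w1) := mul_pos (by linarith) (by linarith)
  have p2 : 0 < (1 + v2) * (1 + w2) := mul_pos (by linarith) (by linarith)
  positivity

/-- The case of a message pair written in scaled form. -/
lemma MergeIneq_scaled {a b c ap bp cp t L r v0 v1 v2 w0 w1 w2 : ℝ} (hL : L < 1) (hr : 0 < r)
    (hv : v0 + v1 + v2 = 0) (hw : w0 + w1 + w2 = 0)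
    (hv0 : -L ≤ 3 * r * v0) (hv1 : -L ≤ 3 * r * v1) (hv2 : -L ≤ 3 * r * v2)
    (hw0 : -L ≤ 3 * r * w0) (hw1 : -L ≤ 3 * r * w1) (hw2 : -L ≤ 3 * r * w2)
    (hK : 0 ≤ Kval a b c ap bp cp t v0 v1 v2 w0 w1 w2 r) :
    MergeIneq a b c ap bp cp t (3 * r * v0) (3 * r * v1) (3 * r * v2)
      (3 * r * w0) (3 * r * w1) (3 * r * w2) := by
  have hV : 3 * r * v0 + 3 * r * v1 + 3 * r * v2 = 0 := by
    have : 3 * r * v0 + 3 * r * v1 + 3 * r * v2 = 3 * r * (v0 + v1 + v2) := by ring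
    rw [this, hv, mul_zero]
  have hW : 3 * r * w0 + 3 * r * w1 + 3 * r * w2 = 0 := by
    have : 3 * r * w0 + 3 * r * w1 + 3 * r * w2 = 3 * r * (w0 + w1 + w2) := by ring
    rw [this, hw, mul_zero]
  have S : ∀ x0 x1 x2 : ℝ, 1 + 3 * (r * r * (v0 * x0 + v1 * x1 + v2 * x2))
      = nrm (3 * r * v0) (3 * r * v1) (3 * r * v2) (3 * r * x0) (3 * r * x1) (3 * r * x2) := by
    intro x0 x1 x2; unfold nrm; ring
  have P : ∀ x0 x1 x2 : ℝ, x0 + x1 + x2 = 0 → -L ≤ 3 * r * x0 → -L ≤ 3 * r * x1 → -L ≤ 3 * r * x2 →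
      1 + 3 * (r * r * (v0 * x0 + v1 * x1 + v2 * x2)) ≠ 0 := by
    intro x0 x1 x2 hx h0 h1 h2
    rw [S]
    apply ne_of_gt
    apply nrm_pos hL hV _ hv0 hv1 hv2 h0 h1 h2
    have : 3 * r * x0 + 3 * r * x1 + 3 * r * x2 = 3 * r * (x0 + x1 + x2) := by ring
    rw [this, hx, mul_zero]
  have id := G_scaled a b c ap bp cp t r v0 v1 v2 w0 w1 w2 hv hw
    (P w0 w1 w2 hw hw0 hw1 hw2) (P w0 w2 w1 (by linarith) hw0 hw2 hw1)
    (P w1 w0 w2 (by linarith) hw1 hw0 hw2) (P w1 w2 w0 (by linarith) hw1 hw2 hw0)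
    (P w2 w0 w1 (by linarith) hw2 hw0 hw1) (P w2 w1 w0 (by linarith) hw2 hw1 hw0)
  unfold MergeIneq
  rw [id]
  have e1 : sq3 (3 * r * v0) (3 * r * v1) (3 * r * v2) = 9 * r ^ 2 * sq3 v0 v1 v2 := by
    unfold sq3; ring
  have e2 : sq3 (3 * r * w0) (3 * r * w1) (3 * r * w2) = 9 * r ^ 2 * sq3 w0 w1 w2 := by
    unfold sq3; ring
  rw [e1, e2]
  have h4 : 0 ≤ 81 * r ^ 4 / 6 := by positivity
  have := mul_nonneg h4 hK
  nlinarith [this]

/-- The hypothesis on the scaled form, in the first chart. -/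
def Chart0 (a b c ap bp cp t L : ℝ) : Prop :=
  ∀ r p w0 w1 : ℝ, 0 ≤ r → r ≤ 1 / 2 → -(1 / 2) ≤ p → p ≤ 0 → 0 ≤ w0 → w0 ≤ 1 → -(1 / 2) ≤ w1 → w1 ≤ 1 / 2 →
    0 ≤ w0 - w1 → 0 ≤ w0 + 2 * w1 → 0 ≤ 1 - w0 - w1 → 0 ≤ L - 3 * (r * (1 + p)) →
    0 ≤ L - 3 * (r * (w0 + w1)) →
    0 ≤ Kval a b c ap bp cp t 1 p (-1 * (1 + p)) w0 w1 (-1 * (w0 + w1)) r

/-- The hypothesis on the scaled form, in the second chart. -/
def Chart1 (a b c ap bp cp t L : ℝ) : Prop :=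
  ∀ r p w0 w1 : ℝ, 0 ≤ r → r ≤ 1 / 2 → 0 ≤ p → p ≤ 1 / 2 → 0 ≤ w0 → w0 ≤ 1 → -(1 / 2) ≤ w1 → w1 ≤ 1 / 2 →
    0 ≤ w0 - w1 → 0 ≤ w0 + 2 * w1 → 0 ≤ 1 - w0 - w1 → 0 ≤ L - 3 * r →
    0 ≤ L - 3 * (r * (w0 + w1)) →
    0 ≤ Kval a b c ap bp cp t (1 - p) p (-1) w0 w1 (-1 * (w0 + w1)) r

lemma MergeIneq_zero (a b c ap bp cp t : ℝ) : MergeIneq a b c ap bp cp t 0 0 0 0 0 0 := by
  norm_num [MergeIneq, avgF, mergeF, nrm, num, pot, sq3, cb3]

section params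

variable {a b c ap bp cp t L : ℝ}

/-- Sorted messages, the first one being the larger one. -/
lemma MergeIneq_sorted (hL : L < 1) (hL2 : L ≤ 3 / 4) (H0 : Chart0 a b c ap bp cp t L)
    (H1 : Chart1 a b c ap bp cp t L) {v0 v1 v2 w0 w1 w2 : ℝ} (hv : v0 + v1 + v2 = 0)
    (hw : w0 + w1 + w2 = 0) (hv01 : v1 ≤ v0) (hv12 : v2 ≤ v1) (hw01 : w1 ≤ w0) (hw12 : w2 ≤ w1)
    (hvL : -L ≤ v2) (hwL : -L ≤ w2) (hn1 : w0 ≤ max v0 (-v2)) (hn2 : -w2 ≤ max v0 (-v2)) :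
    MergeIneq a b c ap bp cp t v0 v1 v2 w0 w1 w2 := by
  have hv0pos : 0 ≤ v0 := by linarith
  have hw0pos : 0 ≤ w0 := by linarith
  have hw2neg : w2 ≤ 0 := by linarith
  have hv2neg : v2 ≤ 0 := by linarith
  have hw1L : -L ≤ w1 := by linarith
  have hw0L : -L ≤ w0 := by linarith
  have hv1L : -L ≤ v1 := by linarith
  have hv0L : -L ≤ v0 := by linarith
  set ρ := max v0 (-v2) with hρ
  have hρ1 : v0 ≤ ρ := le_max_left _ _
  have hρ2 : -v2 ≤ ρ := le_max_right _ _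
  by_cases hρ0 : ρ = 0
  · have e1 : v0 = 0 := by linarith
    have e2 : v2 = 0 := by linarith
    have e3 : v1 = 0 := by linarith
    have e4 : w0 = 0 := by linarith
    have e5 : w2 = 0 := by linarith
    have e6 : w1 = 0 := by linarith
    rw [e1, e2, e3, e4, e5, e6]
    exact MergeIneq_zero _ _ _ _ _ _ _
  have hρpos : 0 < ρ := lt_of_le_of_ne (le_trans hv0pos hρ1) (Ne.symm hρ0)
  set r := ρ / 3 with hr
  have h3r : 3 * r = ρ := by rw [hr]; ring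
  have hrpos : 0 < r := by rw [hr]; positivity
  have hrle : r ≤ 1 / 2 := by
    have : ρ ≤ 3 / 2 := by
      rcases max_cases v0 (-v2) with ⟨h, _⟩ | ⟨h, _⟩
      · rw [hρ, h]; linarith
      · rw [hρ, h]; linarith
    rw [hr]; linarith
  have hdiv : ∀ x : ℝ, 3 * r * (x / ρ) = x := by
    intro x; rw [h3r]; field_simp
  -- coordinates of the second message
  set W0 := w0 / ρ with hW0
  set W1 := w1 / ρ with hW1
  have hW2 : w2 = 3 * r * (-1 * (W0 + W1)) := by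
    have : 3 * r * (-1 * (W0 + W1)) = -(3 * r * W0 + 3 * r * W1) := by ring
    rw [this, hdiv, hdiv]; linarith
  have hW00 : 0 ≤ W0 := by rw [hW0]; positivity
  have hW01 : W0 ≤ 1 := by rw [hW0, div_le_one hρpos]; exact hn1
  have hW10 : -(1 / 2) ≤ W1 := by rw [hW1, le_div_iff₀ hρpos]; linarith
  have hW11 : W1 ≤ 1 / 2 := by rw [hW1, div_le_iff₀ hρpos]; linarith
  have hg0 : 0 ≤ W0 - W1 := by
    have : W0 - W1 = (w0 - w1) / ρ := by rw [hW0, hW1]; ring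
    rw [this]; apply div_nonneg _ hρpos.le; linarith
  have hg1 : 0 ≤ W0 + 2 * W1 := by
    have : W0 + 2 * W1 = (w0 + 2 * w1) / ρ := by rw [hW0, hW1]; ring
    rw [this]; apply div_nonneg _ hρpos.le; linarith
  have hg2 : 0 ≤ 1 - W0 - W1 := by
    have : 1 - W0 - W1 = (ρ - w0 - w1) / ρ := by rw [hW0, hW1]; field_simp
    rw [this]; apply div_nonneg _ hρpos.le; linarith
  have hg4 : 0 ≤ L - 3 * (r * (W0 + W1)) := by
    have : 3 * (r * (W0 + W1)) = 3 * r * W0 + 3 * r * W1 := by ring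
    rw [this, hdiv, hdiv]; linarith
  have hW0' : w0 = 3 * r * W0 := (hdiv w0).symm
  have hW1' : w1 = 3 * r * W1 := (hdiv w1).symm
  rcases le_total (-v2) v0 with hc | hc
  · -- first chart
    have hρv : ρ = v0 := max_eq_left hc
    set p := v1 / ρ with hp
    have hv0' : v0 = 3 * r * 1 := by rw [h3r, hρv]; ring
    have hv1' : v1 = 3 * r * p := (hdiv v1).symm
    have hv2' : v2 = 3 * r * (-1 * (1 + p)) := by
      have : 3 * r * (-1 * (1 + p)) = -(3 * r * 1 + 3 * r * p) := by ring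
      rw [this, ← hv0', ← hv1']; linarith
    have hp0 : -(1 / 2) ≤ p := by rw [hp, le_div_iff₀ hρpos, hρv]; linarith
    have hp1 : p ≤ 0 := by
      rw [hp]; apply div_nonpos_of_nonpos_of_nonneg _ hρpos.le; linarith
    have hg3 : 0 ≤ L - 3 * (r * (1 + p)) := by
      have : 3 * (r * (1 + p)) = 3 * r * 1 + 3 * r * p := by ring
      rw [this, ← hv0', ← hv1']; linarith
    have hK := H0 r p W0 W1 hrpos.le hrle hp0 hp1 hW00 hW01 hW10 hW11 hg0 hg1 hg2 hg3 hg4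
    have hsum : (1 : ℝ) + p + -1 * (1 + p) = 0 := by ring
    have hsumw : W0 + W1 + -1 * (W0 + W1) = 0 := by ring
    have := MergeIneq_scaled (a := a) (b := b) (c := c) (ap := ap) (bp := bp) (cp := cp) (t := t)
      hL hrpos hsum hsumw (by rw [← hv0']; exact hv0L) (by rw [← hv1']; exact hv1L)
      (by rw [← hv2']; exact hvL) (by rw [← hW0']; exact hw0L) (by rw [← hW1']; exact hw1L)
      (by rw [← hW2]; exact hwL) hK
    rw [← hv0', ← hv1', ← hv2', ← hW0', ← hW1', ← hW2] at this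
    exact this
  · -- second chart
    have hρv : ρ = -v2 := max_eq_right hc
    set p := v1 / ρ with hp
    have hv2' : v2 = 3 * r * (-1) := by rw [h3r, hρv]; ring
    have hv1' : v1 = 3 * r * p := (hdiv v1).symm
    have hv0' : v0 = 3 * r * (1 - p) := by
      have : 3 * r * (1 - p) = -(3 * r * (-1) + 3 * r * p) := by ring
      rw [this, ← hv2', ← hv1']; linarith
    have hp0 : 0 ≤ p := by
      rw [hp]; apply div_nonneg _ hρpos.le; linarith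
    have hp1 : p ≤ 1 / 2 := by rw [hp, div_le_iff₀ hρpos, hρv]; linarith
    have hg3 : 0 ≤ L - 3 * r := by rw [h3r, hρv]; linarith
    have hK := H1 r p W0 W1 hrpos.le hrle hp0 hp1 hW00 hW01 hW10 hW11 hg0 hg1 hg2 hg3 hg4
    have hsum : (1 - p) + p + (-1 : ℝ) = 0 := by ring
    have hsumw : W0 + W1 + -1 * (W0 + W1) = 0 := by ring
    have := MergeIneq_scaled (a := a) (b := b) (c := c) (ap := ap) (bp := bp) (cp := cp) (t := t)
      hL hrpos hsum hsumw (by rw [← hv0']; exact hv0L) (by rw [← hv1']; exact hv1L)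
      (by rw [← hv2']; exact hvL) (by rw [← hW0']; exact hw0L) (by rw [← hW1']; exact hw1L)
      (by rw [← hW2]; exact hwL) hK
    rw [← hv0', ← hv1', ← hv2', ← hW0', ← hW1', ← hW2] at this
    exact this

/-- The merge inequality for all messages in the domain. -/
theorem MergeIneq_all (hL : L < 1) (hL2 : L ≤ 3 / 4) (H0 : Chart0 a b c ap bp cp t L)
    (H1 : Chart1 a b c ap bp cp t L) {v0 v1 v2 w0 w1 w2 : ℝ} (hv : v0 + v1 + v2 = 0)
    (hw : w0 + w1 + w2 = 0) (hv0 : -L ≤ v0) (hv1 : -L ≤ v1) (hv2 : -L ≤ v2)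
    (hw0 : -L ≤ w0) (hw1 : -L ≤ w1) (hw2 : -L ≤ w2) :
    MergeIneq a b c ap bp cp t v0 v1 v2 w0 w1 w2 := by
  -- reduction to sorted messages
  have step1 : ∀ x y z : ℝ, (x + y + z = 0 → -L ≤ x → -L ≤ y → -L ≤ z →
      ∀ w0 w1 w2 : ℝ, w0 + w1 + w2 = 0 → -L ≤ w0 → -L ≤ w1 → -L ≤ w2 →
        MergeIneq a b c ap bp cp t x y z w0 w1 w2) := by
    apply sorted_wlog
      (Q := fun x y z => x + y + z = 0 → -L ≤ x → -L ≤ y → -L ≤ z →
        ∀ w0 w1 w2 : ℝ, w0 + w1 + w2 = 0 → -L ≤ w0 → -L ≤ w1 → -L ≤ w2 →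
          MergeIneq a b c ap bp cp t x y z w0 w1 w2)
    · intro x y z h hs h0 h1 h2 w0 w1 w2 hw h3 h4 h5
      exact (h (by linarith) h1 h0 h2 w0 w1 w2 hw h3 h4 h5).v01
    · intro x y z h hs h0 h1 h2 w0 w1 w2 hw h3 h4 h5
      exact (h (by linarith) h0 h2 h1 w0 w1 w2 hw h3 h4 h5).v12
    · intro x y z hxy hyz hs h0 h1 h2
      apply sorted_wlog
        (Q := fun w0 w1 w2 => w0 + w1 + w2 = 0 → -L ≤ w0 → -L ≤ w1 → -L ≤ w2 →
          MergeIneq a b c ap bp cp t x y z w0 w1 w2)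
      · intro u0 u1 u2 h hs' h3 h4 h5
        exact (h (by linarith) h4 h3 h5).w01
      · intro u0 u1 u2 h hs' h3 h4 h5
        exact (h (by linarith) h3 h5 h4).w12
      · intro u0 u1 u2 h01 h12 hs' h3 h4 h5
        rcases le_total (max u0 (-u2)) (max x (-z)) with hc | hc
        · exact MergeIneq_sorted hL hL2 H0 H1 hs hs' hxy hyz h01 h12 h2 h5
            (le_trans (le_max_left _ _) hc) (le_trans (le_max_right _ _) hc)
        · exact (MergeIneq_sorted hL hL2 H0 H1 hs' hs h01 h12 hxy hyz h5 h2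
            (le_trans (le_max_left _ _) hc) (le_trans (le_max_right _ _) hc)).comm
  exact step1 v0 v1 v2 hv hv0 hv1 hv2 w0 w1 w2 hw hw0 hw1 hw2

end params

end Vale.Agent.Lib.P154
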