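import Vale.Agent.Lib.P154.Rec
import Vale.Agent.Lib.P154.Sym

/-!
The recursion for the binary tree (`d = 2`).
-/

namespace Vale.Agent.Lib.P154

open scoped BigOperators
open Filter Topology

/-- The expectation of a function of the message at depth `n`. -/
noncomputable def En (d : ℕ) (lam : ℝ) (n : ℕ) (f : ℝ → ℝ → ℝ → ℝ) : ℝ :=
  ∑ s : LeafConfig 3 d n, Zf lam n s * f (msg lam n s 0) (msg lam n s 1) (msg lam n s 2)

/-- From the decay of the mean of the squared norm of the message to nonreconstruction. -/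
theorem gap_tendsto {d : ℕ} {lam : ℝ} (h1 : -(1 / 2) ≤ lam) (h2 : lam ≤ 1)
    (hΦ : Tendsto (fun n => En d lam n sq3) atTop (𝓝 0)) :
    Tendsto (fun n => reconstructionGap 3 d lam n) atTop (𝓝 0) := by
  have key : ∀ (n : ℕ) (δ : ℝ), 0 < δ → |reconstructionGap 3 d lam n| ≤
      (1 / 6) * (3 * δ / 2 + En d lam n sq3 / (2 * δ)) := by
    intro n δ hδ
    have hterm : ∀ s : LeafConfig 3 d n, leafProb 3 d lam n s *
        ((1 / 2) * ∑ i : Fin 3, |rootPosterior 3 d lam n s i - 1 / ((3 : ℕ) : ℝ)|)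
        = Zf lam n s * ((1 / 6) * (|msg lam n s 0| + |msg lam n s 1| + |msg lam n s 2|)) := by
      intro s
      rw [leafProb_eq]
      by_cases hz : Zf lam n s = 0
      · rw [hz]; simp
      · rw [Fin.sum_univ_three, posterior_eq n s 0 hz, posterior_eq n s 1 hz, posterior_eq n s 2 hz]
        simp only [abs_div]
        norm_num
        left
        ring
    have hgap : reconstructionGap 3 d lam n = ∑ s : LeafConfig 3 d n,
        Zf lam n s * ((1 / 6) * (|msg lam n s 0| + |msg lam n s 1| + |msg lam n s 2|)) := by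
      unfold reconstructionGap
      exact Finset.sum_congr rfl fun s _ => hterm s
    have hnn : 0 ≤ reconstructionGap 3 d lam n := by
      rw [hgap]
      apply Finset.sum_nonneg
      intro s _
      apply mul_nonneg (Z_nonneg h1 h2 n s)
      positivity
    rw [abs_of_nonneg hnn, hgap]
    have hpt : ∀ x : ℝ, |x| ≤ δ / 2 + x * x / (2 * δ) := by
      intro x
      have h3 : 0 ≤ (|x| - δ) ^ 2 := sq_nonneg _
      have h4 : |x| * |x| = x * x := abs_mul_abs_self x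
      have h5 : δ / 2 + x * x / (2 * δ) - |x| = (|x| - δ) ^ 2 / (2 * δ) := by
        rw [← h4]; field_simp; ring
      have h6 : 0 ≤ (|x| - δ) ^ 2 / (2 * δ) := by positivity
      linarith
    have hbound : ∀ s : LeafConfig 3 d n, Zf lam n s * ((1 / 6) * (|msg lam n s 0| + |msg lam n s 1| + |msg lam n s 2|))
        ≤ (1 / 6) * (3 * δ / 2 * Zf lam n s + Zf lam n s * sq3 (msg lam n s 0) (msg lam n s 1) (msg lam n s 2) / (2 * δ)) := by
      intro s
      have hz := Z_nonneg h1 h2 n s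
      have e0 := hpt (msg lam n s 0)
      have e1 := hpt (msg lam n s 1)
      have e2 := hpt (msg lam n s 2)
      have e3 : (|msg lam n s 0| + |msg lam n s 1| + |msg lam n s 2|) ≤ 3 * δ / 2
          + sq3 (msg lam n s 0) (msg lam n s 1) (msg lam n s 2) / (2 * δ) := by
        unfold sq3
        have : (msg lam n s 0 * msg lam n s 0 + msg lam n s 1 * msg lam n s 1 + msg lam n s 2 * msg lam n s 2) / (2 * δ)
          = msg lam n s 0 * msg lam n s 0 / (2 * δ) + msg lam n s 1 * msg lam n s 1 / (2 * δ)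
            + msg lam n s 2 * msg lam n s 2 / (2 * δ) := by ring
        rw [this]; linarith
      have e4 := mul_le_mul_of_nonneg_left e3 hz
      have e5 : (1 / 6) * (3 * δ / 2 * Zf lam n s + Zf lam n s * sq3 (msg lam n s 0) (msg lam n s 1) (msg lam n s 2) / (2 * δ))
          = (1 / 6) * (Zf lam n s * (3 * δ / 2 + sq3 (msg lam n s 0) (msg lam n s 1) (msg lam n s 2) / (2 * δ))) := by
        ring
      rw [e5]
      nlinarith [e4]
    refine le_trans (Finset.sum_le_sum fun s _ => hbound s) ?_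
    rw [← Finset.mul_sum, Finset.sum_add_distrib, ← Finset.mul_sum, sum_Z, ← Finset.sum_div]
    unfold En
    rw [mul_one]
  rw [Metric.tendsto_atTop]
  intro ε hε
  have hε2 : 0 < ε * ε := mul_pos hε hε
  obtain ⟨N, hN⟩ := (Metric.tendsto_atTop.1 hΦ) (ε * ε) hε2
  refine ⟨N, fun n hn => ?_⟩
  have h3 := hN n hn
  rw [Real.dist_eq, sub_zero] at h3 ⊢
  have h4 := key n ε hε
  have h5 : En d lam n sq3 ≤ ε * ε := le_of_lt (lt_of_le_of_lt (le_abs_self _) h3)
  have h6 : En d lam n sq3 / (2 * ε) ≤ ε / 2 := by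
    rw [div_le_iff₀ (by positivity)]
    nlinarith
  have h7 : (1 / 6) * (3 * ε / 2 + En d lam n sq3 / (2 * ε)) ≤ ε / 3 := by linarith
  linarith

section step

variable {lam : ℝ}

lemma lik_child (h1 : -(1 / 2) ≤ lam) (h2 : lam ≤ 1) (n : ℕ) (i : Fin 3) (x : LeafConfig 3 2 n) :
    ∑ j : Fin 3, pottsChannel 3 lam i j * leafLik 3 2 lam n j x = Zf lam n x * (1 + lam * msg lam n x i) := by
  rw [channel3_sum]
  have e : (1 / 3) * ∑ j : Fin 3, leafLik 3 2 lam n j x = Zf lam n x := rfl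
  rw [e, lik_eq h1 h2 n x i]
  ring

/-- The likelihood at depth `n + 1` in terms of the two children. -/
lemma lik_succ2 (h1 : -(1 / 2) ≤ lam) (h2 : lam ≤ 1) (n : ℕ) (i : Fin 3) (s : Fin 2 → LeafConfig 3 2 n) :
    leafLik 3 2 lam (n + 1) i s
      = (Zf lam n (s 0) * (1 + lam * msg lam n (s 0) i)) * (Zf lam n (s 1) * (1 + lam * msg lam n (s 1) i)) := by
  show ∏ c : Fin 2, ∑ j : Fin 3, pottsChannel 3 lam i j * leafLik 3 2 lam n j (s c) = _
  rw [Fin.prod_univ_two, lik_child h1 h2, lik_child h1 h2]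

/-- The normalization for two children. -/
lemma Z_succ2 (h1 : -(1 / 2) ≤ lam) (h2 : lam ≤ 1) (n : ℕ) (s : Fin 2 → LeafConfig 3 2 n) :
    Zf lam (n + 1) s = Zf lam n (s 0) * Zf lam n (s 1) *
      nrm (lam * msg lam n (s 0) 0) (lam * msg lam n (s 0) 1) (lam * msg lam n (s 0) 2)
        (lam * msg lam n (s 1) 0) (lam * msg lam n (s 1) 1) (lam * msg lam n (s 1) 2) := by
  have e : Zf lam (n + 1) s = (1 / 3) * ∑ i : Fin 3, leafLik 3 2 lam (n + 1) i s := rfl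
  rw [e, Fin.sum_univ_three, lik_succ2 h1 h2, lik_succ2 h1 h2, lik_succ2 h1 h2]
  have e1 := msg_sum lam n (s 0)
  have e2 := msg_sum lam n (s 1)
  unfold nrm
  generalize Zf lam n (s 0) = Z0
  generalize Zf lam n (s 1) = Z1
  generalize msg lam n (s 0) 0 = a0 at *
  generalize msg lam n (s 0) 1 = a1 at *
  generalize msg lam n (s 0) 2 = a2 at *
  generalize msg lam n (s 1) 0 = b0 at *
  generalize msg lam n (s 1) 1 = b1 at *
  generalize msg lam n (s 1) 2 = b2 at *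
  have e3 : a2 = -a0 - a1 := by linarith
  have e4 : b2 = -b0 - b1 := by linarith
  subst e3 e4
  ring

/-- The message at depth `n + 1`, when the colouring has positive probability. -/
lemma msg_succ2 (h1 : -(1 / 2) ≤ lam) (h2 : lam ≤ 1) (n : ℕ) (s : Fin 2 → LeafConfig 3 2 n) (i : Fin 3)
    (hz : Zf lam (n + 1) s ≠ 0) :
    msg lam (n + 1) s i =
      num (lam * msg lam n (s 0) 0) (lam * msg lam n (s 0) 1) (lam * msg lam n (s 0) 2)
        (lam * msg lam n (s 1) 0) (lam * msg lam n (s 1) 1) (lam * msg lam n (s 1) 2)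
        (lam * msg lam n (s 0) i) (lam * msg lam n (s 1) i) /
      nrm (lam * msg lam n (s 0) 0) (lam * msg lam n (s 0) 1) (lam * msg lam n (s 0) 2)
        (lam * msg lam n (s 1) 0) (lam * msg lam n (s 1) 1) (lam * msg lam n (s 1) 2) := by
  have hz' := hz
  rw [Z_succ2 h1 h2] at hz'
  have hZ0 : Zf lam n (s 0) ≠ 0 := fun h => hz' (by rw [h]; ring)
  have hZ1 : Zf lam n (s 1) ≠ 0 := fun h => hz' (by rw [h]; ring)
  have hN : nrm (lam * msg lam n (s 0) 0) (lam * msg lam n (s 0) 1) (lam * msg lam n (s 0) 2)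
        (lam * msg lam n (s 1) 0) (lam * msg lam n (s 1) 1) (lam * msg lam n (s 1) 2) ≠ 0 :=
    fun h => hz' (by rw [h]; ring)
  have e : msg lam (n + 1) s i = leafLik 3 2 lam (n + 1) i s / Zf lam (n + 1) s - 1 := by
    unfold msg; rw [if_neg hz]
  rw [e, lik_succ2 h1 h2, Z_succ2 h1 h2]
  rw [eq_div_iff hN]
  field_simp
  unfold num nrm
  ring

/-- One term of the expectation at depth `n + 1`. -/
lemma term_succ2 (h1 : -(1 / 2) ≤ lam) (h2 : lam ≤ 1) (a b c : ℝ) (n : ℕ) (s : Fin 2 → LeafConfig 3 2 n) :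
    Zf lam (n + 1) s * pot a b c (msg lam (n + 1) s 0) (msg lam (n + 1) s 1) (msg lam (n + 1) s 2)
      = Zf lam n (s 0) * Zf lam n (s 1) *
        mergeF a b c (lam * msg lam n (s 0) 0) (lam * msg lam n (s 0) 1) (lam * msg lam n (s 0) 2)
        (lam * msg lam n (s 1) 0) (lam * msg lam n (s 1) 1) (lam * msg lam n (s 1) 2) := by
  unfold mergeF
  rw [← mul_assoc, ← Z_succ2 h1 h2]
  by_cases hz : Zf lam (n + 1) s = 0
  · rw [hz, zero_mul, zero_mul]
  · rw [msg_succ2 h1 h2 n s 0 hz, msg_succ2 h1 h2 n s 1 hz, msg_succ2 h1 h2 n s 2 hz]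

lemma sum_two {S : Type} [Fintype S] (G : S → S → ℝ) :
    ∑ s : Fin 2 → S, G (s 0) (s 1) = ∑ x : S, ∑ y : S, G x y := by
  rw [← Fintype.sum_prod_type']
  exact Fintype.sum_equiv (finTwoArrowEquiv S) _ (fun p => G p.1 p.2) (fun s => rfl)

/-- The expectation at depth `n + 1`, as a double sum. -/
lemma En_succ2 (h1 : -(1 / 2) ≤ lam) (h2 : lam ≤ 1) (a b c : ℝ) (n : ℕ) :
    En 2 lam (n + 1) (pot a b c) = ∑ x : LeafConfig 3 2 n, ∑ y : LeafConfig 3 2 n,
      Zf lam n x * Zf lam n y *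
        mergeF a b c (lam * msg lam n x 0) (lam * msg lam n x 1) (lam * msg lam n x 2)
        (lam * msg lam n y 0) (lam * msg lam n y 1) (lam * msg lam n y 2) := by
  unfold En
  rw [sum_succ]
  rw [← sum_two (fun x y => Zf lam n x * Zf lam n y *
        mergeF a b c (lam * msg lam n x 0) (lam * msg lam n x 1) (lam * msg lam n x 2)
        (lam * msg lam n y 0) (lam * msg lam n y 1) (lam * msg lam n y 2))]
  exact Finset.sum_congr rfl fun s _ => term_succ2 h1 h2 a b c n s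

/-- Averaging over the colour permutations of the second child. -/
lemma sym_avg (a b c : ℝ) (n : ℕ) (v0 v1 v2 : ℝ) :
    ∑ y : LeafConfig 3 2 n, Zf lam n y *
        mergeF a b c v0 v1 v2 (lam * msg lam n y 0) (lam * msg lam n y 1) (lam * msg lam n y 2)
      = ∑ y : LeafConfig 3 2 n, Zf lam n y *
        avgF a b c v0 v1 v2 (lam * msg lam n y 0) (lam * msg lam n y 1) (lam * msg lam n y 2) := by
  have H := fun g : Equiv.Perm (Fin 3) =>
    sum_perm (d := 2) g lam n (fun p q r => mergeF a b c v0 v1 v2 (lam * p) (lam * q) (lam * r))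
  have H1 := H (Equiv.swap 1 2)
  have H2 := H (Equiv.swap 0 1)
  have H3 := H (Equiv.swap 0 1 * Equiv.swap 1 2 : Equiv.Perm (Fin 3))
  have H4 := H (Equiv.swap 1 2 * Equiv.swap 0 1 : Equiv.Perm (Fin 3))
  have H5 := H (Equiv.swap 0 2)
  have v10 : (Equiv.swap (1 : Fin 3) 2) 0 = 0 := by decide
  have v11 : (Equiv.swap (1 : Fin 3) 2) 1 = 2 := by decide
  have v12 : (Equiv.swap (1 : Fin 3) 2) 2 = 1 := by decide
  have v20 : (Equiv.swap (0 : Fin 3) 1) 0 = 1 := by decide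
  have v21 : (Equiv.swap (0 : Fin 3) 1) 1 = 0 := by decide
  have v22 : (Equiv.swap (0 : Fin 3) 1) 2 = 2 := by decide
  have v30 : (Equiv.swap 0 1 * Equiv.swap 1 2 : Equiv.Perm (Fin 3)) 0 = 1 := by decide
  have v31 : (Equiv.swap 0 1 * Equiv.swap 1 2 : Equiv.Perm (Fin 3)) 1 = 2 := by decide
  have v32 : (Equiv.swap 0 1 * Equiv.swap 1 2 : Equiv.Perm (Fin 3)) 2 = 0 := by decide
  have v40 : (Equiv.swap 1 2 * Equiv.swap 0 1 : Equiv.Perm (Fin 3)) 0 = 2 := by decide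
  have v41 : (Equiv.swap 1 2 * Equiv.swap 0 1 : Equiv.Perm (Fin 3)) 1 = 0 := by decide
  have v42 : (Equiv.swap 1 2 * Equiv.swap 0 1 : Equiv.Perm (Fin 3)) 2 = 1 := by decide
  have v50 : (Equiv.swap (0 : Fin 3) 2) 0 = 2 := by decide
  have v51 : (Equiv.swap (0 : Fin 3) 2) 1 = 1 := by decide
  have v52 : (Equiv.swap (0 : Fin 3) 2) 2 = 0 := by decide
  rw [v10, v11, v12] at H1
  rw [v20, v21, v22] at H2
  rw [v30, v31, v32] at H3
  rw [v40, v41, v42] at H4
  rw [v50, v51, v52] at H5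
  unfold avgF
  simp only [mul_add, Finset.sum_add_distrib]
  have comm : ∀ y : LeafConfig 3 2 n, ∀ m : ℝ, Zf lam n y * (1 / 6 * m) = 1 / 6 * (Zf lam n y * m) := by
    intro y m; ring
  simp only [comm, ← Finset.mul_sum]
  rw [H1, H2, H3, H4, H5]
  ring

section doublesum

variable {S : Type} [Fintype S] {Z : S → ℝ}

lemma dsum_add (hZ : ∑ x, Z x = 1) (f : S → ℝ) :
    ∑ x, ∑ y, Z x * Z y * (f x + f y) = 2 * ∑ x, Z x * f x := by
  have e1 : ∑ x, ∑ y, Z x * Z y * f x = ∑ x, Z x * f x := by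
    apply Finset.sum_congr rfl
    intro x _
    have : ∀ y, Z x * Z y * f x = Z y * (Z x * f x) := fun y => by ring
    simp_rw [this]
    rw [← Finset.sum_mul, hZ, one_mul]
  have e2 : ∑ x, ∑ y, Z x * Z y * f y = ∑ x, Z x * f x := by
    have : ∀ x, ∑ y, Z x * Z y * f y = Z x * ∑ y, Z y * f y := fun x => by
      rw [Finset.mul_sum]; exact Finset.sum_congr rfl fun y _ => by ring
    simp_rw [this]
    rw [← Finset.sum_mul, hZ, one_mul]
  simp only [mul_add, Finset.sum_add_distrib]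
  rw [e1, e2]; ring

lemma dsum_mul (f : S → ℝ) :
    ∑ x, ∑ y, Z x * Z y * (f x * f y) = (∑ x, Z x * f x) ^ 2 := by
  rw [sq, Finset.sum_mul_sum]
  exact Finset.sum_congr rfl fun x _ => Finset.sum_congr rfl fun y _ => by ring

lemma dsum_sq_ge (hZ0 : ∀ x, 0 ≤ Z x) (f : S → ℝ) :
    4 * (∑ x, Z x * f x) ^ 2 ≤ ∑ x, ∑ y, Z x * Z y * ((f x + f y) * (f x + f y)) := by
  rw [← dsum_mul, Finset.mul_sum]
  apply Finset.sum_le_sum
  intro x _
  rw [Finset.mul_sum]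
  apply Finset.sum_le_sum
  intro y _
  have h : 0 ≤ Z x * Z y := mul_nonneg (hZ0 x) (hZ0 y)
  nlinarith [mul_nonneg h (sq_nonneg (f x - f y))]

end doublesum

lemma sq3_nonneg (x y z : ℝ) : 0 ≤ sq3 x y z := by
  unfold sq3
  nlinarith [mul_self_nonneg x, mul_self_nonneg y, mul_self_nonneg z]

lemma sq3_scale (l x y z : ℝ) : sq3 (l * x) (l * y) (l * z) = l ^ 2 * sq3 x y z := by
  unfold sq3; ring

/-- The step of the recursion for the potential, for `lam ≥ 0`. -/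
theorem En_step_pos {a b c ap bp cp t L : ℝ} (hM : ∀ v0 v1 v2 w0 w1 w2 : ℝ, v0 + v1 + v2 = 0 → w0 + w1 + w2 = 0 →
      -L ≤ v0 → -L ≤ v1 → -L ≤ v2 → -L ≤ w0 → -L ≤ w1 → -L ≤ w2 →
      MergeIneq a b c ap bp cp t v0 v1 v2 w0 w1 w2)
    (h1 : -(1 / 2) ≤ lam) (h2 : lam ≤ 1) (h0 : 0 ≤ lam) (hL : lam ≤ L)
    (hcl : ∀ u0 u1 u2 : ℝ, u0 + u1 + u2 = 0 → -1 ≤ u0 → -1 ≤ u1 → -1 ≤ u2 →
      2 * pot ap bp cp (lam * u0) (lam * u1) (lam * u2) ≤ pot a b c u0 u1 u2)
    (ht : 0 ≤ t) (n : ℕ) :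
    En 2 lam (n + 1) (pot a b c) ≤ En 2 lam n (pot a b c) - 4 * t * lam ^ 4 * (En 2 lam n sq3) ^ 2 := by
  have hZ0 := Z_nonneg (d := 2) h1 h2 n
  have hZ1 := sum_Z (d := 2) lam n
  rw [En_succ2 h1 h2]
  have e1 : ∑ x : LeafConfig 3 2 n, ∑ y : LeafConfig 3 2 n, Zf lam n x * Zf lam n y *
        mergeF a b c (lam * msg lam n x 0) (lam * msg lam n x 1) (lam * msg lam n x 2)
        (lam * msg lam n y 0) (lam * msg lam n y 1) (lam * msg lam n y 2)
      = ∑ x : LeafConfig 3 2 n, ∑ y : LeafConfig 3 2 n, Zf lam n x * Zf lam n y *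
        avgF a b c (lam * msg lam n x 0) (lam * msg lam n x 1) (lam * msg lam n x 2)
        (lam * msg lam n y 0) (lam * msg lam n y 1) (lam * msg lam n y 2) := by
    apply Finset.sum_congr rfl
    intro x _
    have A : ∀ F : LeafConfig 3 2 n → ℝ, ∑ y, Zf lam n x * Zf lam n y * F y
        = Zf lam n x * ∑ y, Zf lam n y * F y := by
      intro F; rw [Finset.mul_sum]; exact Finset.sum_congr rfl fun y _ => by ring
    rw [A, A, sym_avg]
  rw [e1]
  have hdom : ∀ (x : LeafConfig 3 2 n) (i : Fin 3), -L ≤ lam * msg lam n x i := by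
    intro x i
    have := msg_ge h1 h2 n x i
    nlinarith
  have hsum : ∀ x : LeafConfig 3 2 n, lam * msg lam n x 0 + lam * msg lam n x 1 + lam * msg lam n x 2 = 0 := by
    intro x
    have := msg_sum lam n x
    have e : lam * msg lam n x 0 + lam * msg lam n x 1 + lam * msg lam n x 2
      = lam * (msg lam n x 0 + msg lam n x 1 + msg lam n x 2) := by ring
    rw [e, this, mul_zero]
  set A : LeafConfig 3 2 n → ℝ := fun x => pot ap bp cp (lam * msg lam n x 0) (lam * msg lam n x 1) (lam * msg lam n x 2) with hA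
  set B : LeafConfig 3 2 n → ℝ := fun x => sq3 (msg lam n x 0) (msg lam n x 1) (msg lam n x 2) with hB
  have hpt : ∀ x y : LeafConfig 3 2 n, Zf lam n x * Zf lam n y *
        avgF a b c (lam * msg lam n x 0) (lam * msg lam n x 1) (lam * msg lam n x 2)
        (lam * msg lam n y 0) (lam * msg lam n y 1) (lam * msg lam n y 2)
      ≤ Zf lam n x * Zf lam n y * (A x + A y)
        - t * lam ^ 4 * (Zf lam n x * Zf lam n y * ((B x + B y) * (B x + B y))) := by
    intro x y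
    have h := hM _ _ _ _ _ _ (hsum x) (hsum y) (hdom x 0) (hdom x 1) (hdom x 2) (hdom y 0) (hdom y 1) (hdom y 2)
    unfold MergeIneq at h
    rw [sq3_scale, sq3_scale] at h
    have hzz : 0 ≤ Zf lam n x * Zf lam n y := mul_nonneg (hZ0 x) (hZ0 y)
    have h3 := mul_le_mul_of_nonneg_left h hzz
    simp only [hA, hB]
    nlinarith [h3]
  refine le_trans (Finset.sum_le_sum fun x _ => Finset.sum_le_sum fun y _ => hpt x y) ?_
  simp only [Finset.sum_sub_distrib]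
  rw [dsum_add hZ1 A]
  have e2 : ∑ x : LeafConfig 3 2 n, ∑ y : LeafConfig 3 2 n, t * lam ^ 4 * (Zf lam n x * Zf lam n y * ((B x + B y) * (B x + B y)))
      = t * lam ^ 4 * ∑ x : LeafConfig 3 2 n, ∑ y : LeafConfig 3 2 n, Zf lam n x * Zf lam n y * ((B x + B y) * (B x + B y)) := by
    simp only [Finset.mul_sum]
  rw [e2]
  have e3 := dsum_sq_ge hZ0 B
  have e4 : (∑ x : LeafConfig 3 2 n, Zf lam n x * B x) = En 2 lam n sq3 := rfl
  rw [e4] at e3
  have e5 : 2 * ∑ x : LeafConfig 3 2 n, Zf lam n x * A x ≤ En 2 lam n (pot a b c) := by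
    unfold En
    rw [Finset.mul_sum]
    apply Finset.sum_le_sum
    intro x _
    have := hcl _ _ _ (msg_sum lam n x) (msg_ge h1 h2 n x 0) (msg_ge h1 h2 n x 1) (msg_ge h1 h2 n x 2)
    have h4 := mul_le_mul_of_nonneg_left this (hZ0 x)
    simp only [hA]
    nlinarith [h4]
  have e6 : 0 ≤ t * lam ^ 4 := by positivity
  have e7 := mul_le_mul_of_nonneg_left e3 e6
  nlinarith [e7]

/-- The bound on the merge for messages pointing away from a colour. -/
lemma avgF_neg {v0 v1 v2 w0 w1 w2 : ℝ} (hv : v0 + v1 + v2 = 0) (hw : w0 + w1 + w2 = 0)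
    (hv0 : v0 ≤ 1 / 2) (hv1 : v1 ≤ 1 / 2) (hv2 : v2 ≤ 1 / 2)
    (hw0 : w0 ≤ 1 / 2) (hw1 : w1 ≤ 1 / 2) (hw2 : w2 ≤ 1 / 2) :
    avgF 0 0 0 v0 v1 v2 w0 w1 w2 ≤ (3 / 2) * (sq3 v0 v1 v2 + sq3 w0 w1 w2) := by
  have hpt : ∀ x0 x1 x2 : ℝ, x0 + x1 + x2 = 0 → x0 ≤ 1 / 2 → x1 ≤ 1 / 2 → x2 ≤ 1 / 2 →
      mergeF 0 0 0 v0 v1 v2 x0 x1 x2 ≤ (4 / 3) * sq3 (num v0 v1 v2 x0 x1 x2 v0 x0)
        (num v0 v1 v2 x0 x1 x2 v1 x1) (num v0 v1 v2 x0 x1 x2 v2 x2) := by
    intro x0 x1 x2 hx h0 h1 h2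
    have hN : 3 / 4 ≤ nrm v0 v1 v2 x0 x1 x2 := by
      unfold nrm
      have e : v0 * x0 + v1 * x1 + v2 * x2 = -(3 / 4)
          + ((1 / 2 - v0) * (1 / 2 - x0) + (1 / 2 - v1) * (1 / 2 - x1) + (1 / 2 - v2) * (1 / 2 - x2)) := by
        have e3 : v2 = -v0 - v1 := by linarith
        have e4 : x2 = -x0 - x1 := by linarith
        subst e3 e4; ring
      have p0 : 0 ≤ (1 / 2 - v0) * (1 / 2 - x0) := mul_nonneg (by linarith) (by linarith)
      have p1 : 0 ≤ (1 / 2 - v1) * (1 / 2 - x1) := mul_nonneg (by linarith) (by linarith)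
      have p2 : 0 ≤ (1 / 2 - v2) * (1 / 2 - x2) := mul_nonneg (by linarith) (by linarith)
      linarith
    have hNpos : 0 < nrm v0 v1 v2 x0 x1 x2 := by linarith
    unfold mergeF pot
    simp only [zero_mul, add_zero, sub_zero]
    set N := nrm v0 v1 v2 x0 x1 x2
    have hS : 0 ≤ sq3 (num v0 v1 v2 x0 x1 x2 v0 x0) (num v0 v1 v2 x0 x1 x2 v1 x1) (num v0 v1 v2 x0 x1 x2 v2 x2) := by
      exact sq3_nonneg _ _ _
    have e : N * sq3 (num v0 v1 v2 x0 x1 x2 v0 x0 / N) (num v0 v1 v2 x0 x1 x2 v1 x1 / N) (num v0 v1 v2 x0 x1 x2 v2 x2 / N)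
        = sq3 (num v0 v1 v2 x0 x1 x2 v0 x0) (num v0 v1 v2 x0 x1 x2 v1 x1) (num v0 v1 v2 x0 x1 x2 v2 x2) / N := by
      unfold sq3; field_simp
    rw [e, div_le_iff₀ hNpos]
    nlinarith
  have hXv : sq3 v0 v1 v2 ≤ 3 / 2 := by
    unfold sq3
    have e3 : v2 = -v0 - v1 := by linarith
    subst e3
    nlinarith [mul_nonneg (sub_nonneg.2 hv0) (sub_nonneg.2 hv1),
      mul_nonneg (sub_nonneg.2 hv0) (sub_nonneg.2 hv2), mul_nonneg (sub_nonneg.2 hv1) (sub_nonneg.2 hv2)]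
  have hXw : sq3 w0 w1 w2 ≤ 3 / 2 := by
    unfold sq3
    have e3 : w2 = -w0 - w1 := by linarith
    subst e3
    nlinarith [mul_nonneg (sub_nonneg.2 hw0) (sub_nonneg.2 hw1),
      mul_nonneg (sub_nonneg.2 hw0) (sub_nonneg.2 hw2), mul_nonneg (sub_nonneg.2 hw1) (sub_nonneg.2 hw2)]
  have hXv0 : 0 ≤ sq3 v0 v1 v2 := sq3_nonneg _ _ _
  have hXw0 : 0 ≤ sq3 w0 w1 w2 := sq3_nonneg _ _ _
  have hid : sq3 (num v0 v1 v2 w0 w1 w2 v0 w0) (num v0 v1 v2 w0 w1 w2 v1 w1) (num v0 v1 v2 w0 w1 w2 v2 w2)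
      + sq3 (num v0 v1 v2 w0 w2 w1 v0 w0) (num v0 v1 v2 w0 w2 w1 v1 w2) (num v0 v1 v2 w0 w2 w1 v2 w1)
      + sq3 (num v0 v1 v2 w1 w0 w2 v0 w1) (num v0 v1 v2 w1 w0 w2 v1 w0) (num v0 v1 v2 w1 w0 w2 v2 w2)
      + sq3 (num v0 v1 v2 w1 w2 w0 v0 w1) (num v0 v1 v2 w1 w2 w0 v1 w2) (num v0 v1 v2 w1 w2 w0 v2 w0)
      + sq3 (num v0 v1 v2 w2 w0 w1 v0 w2) (num v0 v1 v2 w2 w0 w1 v1 w0) (num v0 v1 v2 w2 w0 w1 v2 w1)
      + sq3 (num v0 v1 v2 w2 w1 w0 v0 w2) (num v0 v1 v2 w2 w1 w0 v1 w1) (num v0 v1 v2 w2 w1 w0 v2 w0)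
      = 6 * (sq3 v0 v1 v2 + sq3 w0 w1 w2) + sq3 v0 v1 v2 * sq3 w0 w1 w2 := by
    have e3 : v2 = -v0 - v1 := by linarith
    have e4 : w2 = -w0 - w1 := by linarith
    subst e3 e4
    unfold sq3 num
    ring
  unfold avgF
  have b1 := hpt w0 w1 w2 hw hw0 hw1 hw2
  have b2 := hpt w0 w2 w1 (by linarith) hw0 hw2 hw1
  have b3 := hpt w1 w0 w2 (by linarith) hw1 hw0 hw2
  have b4 := hpt w1 w2 w0 (by linarith) hw1 hw2 hw0
  have b5 := hpt w2 w0 w1 (by linarith) hw2 hw0 hw1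
  have b6 := hpt w2 w1 w0 (by linarith) hw2 hw1 hw0
  nlinarith [mul_nonneg hXv0 (sub_nonneg.2 hXw), mul_nonneg hXw0 (sub_nonneg.2 hXv)]

lemma pot_zero (x y z : ℝ) : pot 0 0 0 x y z = sq3 x y z := by
  unfold pot; ring

/-- The step of the recursion for `lam ≤ 0`. -/
theorem En_step_neg (h1 : -(1 / 2) ≤ lam) (h0 : lam ≤ 0) (n : ℕ) :
    En 2 lam (n + 1) sq3 ≤ 3 * lam ^ 2 * En 2 lam n sq3 := by
  have h2 : lam ≤ 1 := by linarith
  have hZ0 := Z_nonneg (d := 2) h1 h2 n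
  have hZ1 := sum_Z (d := 2) lam n
  have e0 : En 2 lam (n + 1) sq3 = En 2 lam (n + 1) (pot 0 0 0) := by
    unfold En
    simp only [pot_zero]
  rw [e0, En_succ2 h1 h2]
  have e1 : ∑ x : LeafConfig 3 2 n, ∑ y : LeafConfig 3 2 n, Zf lam n x * Zf lam n y *
        mergeF 0 0 0 (lam * msg lam n x 0) (lam * msg lam n x 1) (lam * msg lam n x 2)
        (lam * msg lam n y 0) (lam * msg lam n y 1) (lam * msg lam n y 2)
      = ∑ x : LeafConfig 3 2 n, ∑ y : LeafConfig 3 2 n, Zf lam n x * Zf lam n y *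
        avgF 0 0 0 (lam * msg lam n x 0) (lam * msg lam n x 1) (lam * msg lam n x 2)
        (lam * msg lam n y 0) (lam * msg lam n y 1) (lam * msg lam n y 2) := by
    apply Finset.sum_congr rfl
    intro x _
    have A : ∀ F : LeafConfig 3 2 n → ℝ, ∑ y, Zf lam n x * Zf lam n y * F y
        = Zf lam n x * ∑ y, Zf lam n y * F y := by
      intro F; rw [Finset.mul_sum]; exact Finset.sum_congr rfl fun y _ => by ring
    rw [A, A, sym_avg]
  rw [e1]
  have hdom : ∀ (x : LeafConfig 3 2 n) (i : Fin 3), lam * msg lam n x i ≤ 1 / 2 := by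
    intro x i
    have := msg_ge h1 h2 n x i
    nlinarith
  have hsum : ∀ x : LeafConfig 3 2 n, lam * msg lam n x 0 + lam * msg lam n x 1 + lam * msg lam n x 2 = 0 := by
    intro x
    have := msg_sum lam n x
    have e : lam * msg lam n x 0 + lam * msg lam n x 1 + lam * msg lam n x 2
      = lam * (msg lam n x 0 + msg lam n x 1 + msg lam n x 2) := by ring
    rw [e, this, mul_zero]
  set B : LeafConfig 3 2 n → ℝ := fun x => sq3 (msg lam n x 0) (msg lam n x 1) (msg lam n x 2) with hB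
  have hpt : ∀ x y : LeafConfig 3 2 n, Zf lam n x * Zf lam n y *
        avgF 0 0 0 (lam * msg lam n x 0) (lam * msg lam n x 1) (lam * msg lam n x 2)
        (lam * msg lam n y 0) (lam * msg lam n y 1) (lam * msg lam n y 2)
      ≤ (3 / 2) * lam ^ 2 * (Zf lam n x * Zf lam n y * (B x + B y)) := by
    intro x y
    have h := avgF_neg (hsum x) (hsum y) (hdom x 0) (hdom x 1) (hdom x 2) (hdom y 0) (hdom y 1) (hdom y 2)
    rw [sq3_scale, sq3_scale] at h
    have hzz : 0 ≤ Zf lam n x * Zf lam n y := mul_nonneg (hZ0 x) (hZ0 y)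
    have h3 := mul_le_mul_of_nonneg_left h hzz
    simp only [hB]
    nlinarith [h3]
  refine le_trans (Finset.sum_le_sum fun x _ => Finset.sum_le_sum fun y _ => hpt x y) ?_
  simp only [← Finset.mul_sum]
  rw [dsum_add hZ1 B]
  have e4 : (∑ x : LeafConfig 3 2 n, Zf lam n x * B x) = En 2 lam n sq3 := rfl
  rw [e4]
  apply le_of_eq
  ring

end step

section limit

/-- A nonnegative sequence with a quadratic decrement tends to zero. -/
lemma tendsto_zero_of_rec {l : ℕ → ℝ} {κ : ℝ} (hκ : 0 < κ) (h0 : ∀ n, 0 ≤ l n)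
    (h : ∀ n, l (n + 1) ≤ l n - κ * (l n) ^ 2) : Tendsto l atTop (𝓝 0) := by
  have hanti : Antitone l := by
    apply antitone_nat_of_succ_le
    intro n
    have := h n
    have h2 : 0 ≤ κ * (l n) ^ 2 := by positivity
    linarith
  have hbdd : BddBelow (Set.range l) := ⟨0, by rintro _ ⟨n, rfl⟩; exact h0 n⟩
  have hlim := tendsto_atTop_ciInf hanti hbdd
  set L := ⨅ n, l n with hL
  have hL0 : 0 ≤ L := le_ciInf h0
  have h1 : Tendsto (fun n => l (n + 1)) atTop (𝓝 L) := hlim.comp (tendsto_add_atTop_nat 1)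
  have h2 : Tendsto (fun n => l n - κ * (l n) ^ 2) atTop (𝓝 (L - κ * L ^ 2)) :=
    hlim.sub ((hlim.pow 2).const_mul κ)
  have h3 : L ≤ L - κ * L ^ 2 := le_of_tendsto_of_tendsto' h1 h2 h
  have h4 : L ^ 2 ≤ 0 := by
    by_contra hc
    have hc' := not_le.1 hc
    have := mul_pos hκ hc'
    linarith
  have h5 : L = 0 := by
    have : L ^ 2 = 0 := le_antisymm h4 (sq_nonneg L)
    exact pow_eq_zero_iff (two_ne_zero) |>.1 this
  rw [h5] at hlim
  exact hlim

/-- A nonnegative sequence with a geometric decrease tends to zero. -/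
lemma tendsto_zero_of_geom {l : ℕ → ℝ} (h0 : ∀ n, 0 ≤ l n) (h : ∀ n, l (n + 1) ≤ (3 / 4) * l n) :
    Tendsto l atTop (𝓝 0) := by
  have h1 : ∀ n, l n ≤ (3 / 4) ^ n * l 0 := by
    intro n
    induction n with
    | zero => simp
    | succ n ih =>
      calc l (n + 1) ≤ (3 / 4) * l n := h n
        _ ≤ (3 / 4) * ((3 / 4) ^ n * l 0) := by gcongr
        _ = _ := by ring
  have h2 : Tendsto (fun n : ℕ => ((3 : ℝ) / 4) ^ n * l 0) atTop (𝓝 0) := by
    have := (tendsto_pow_atTop_nhds_zero_of_lt_one (by norm_num : (0 : ℝ) ≤ 3 / 4)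
      (by norm_num : (3 : ℝ) / 4 < 1)).mul_const (l 0)
    simpa using this
  exact squeeze_zero h0 h1 h2

lemma En_sq3_nonneg {d : ℕ} {lam : ℝ} (h1 : -(1 / 2) ≤ lam) (h2 : lam ≤ 1) (n : ℕ) :
    0 ≤ En d lam n sq3 :=
  Finset.sum_nonneg fun s _ => mul_nonneg (Z_nonneg h1 h2 n s) (sq3_nonneg _ _ _)

/-- Nonreconstruction for `-1/2 ≤ lam ≤ 0`. -/
theorem gap_tendsto_neg {lam : ℝ} (h1 : -(1 / 2) ≤ lam) (h0 : lam ≤ 0) :
    Tendsto (fun n => reconstructionGap 3 2 lam n) atTop (𝓝 0) := by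
  have h2 : lam ≤ 1 := by linarith
  apply gap_tendsto h1 h2
  apply tendsto_zero_of_geom (En_sq3_nonneg h1 h2)
  intro n
  have := En_step_neg h1 h0 n
  have h3 : lam ^ 2 ≤ 1 / 4 := by nlinarith
  have h4 := En_sq3_nonneg (d := 2) h1 h2 n
  nlinarith

/-- Bounds on the sum of squares and the cubic form on the simplex. -/
lemma sq3_le_six {u0 u1 u2 : ℝ} (hs : u0 + u1 + u2 = 0) (h0 : -1 ≤ u0) (h1 : -1 ≤ u1) (h2 : -1 ≤ u2) :
    sq3 u0 u1 u2 ≤ 6 := by
  unfold sq3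
  have e : u2 = -u0 - u1 := by linarith
  subst e
  nlinarith [mul_nonneg (by linarith : 0 ≤ 1 + u0) (by linarith : 0 ≤ 1 + u1),
    mul_nonneg (by linarith : 0 ≤ 1 + u0) (by linarith : 0 ≤ 1 + (-u0 - u1)),
    mul_nonneg (by linarith : 0 ≤ 1 + u1) (by linarith : 0 ≤ 1 + (-u0 - u1))]

lemma cb3_le_sq3 {u0 u1 u2 : ℝ} (hs : u0 + u1 + u2 = 0) (h0 : -1 ≤ u0) (h1 : -1 ≤ u1) (h2 : -1 ≤ u2) :
    cb3 u0 u1 u2 ≤ sq3 u0 u1 u2 := by
  have e : 3 * (sq3 u0 u1 u2 - cb3 u0 u1 u2) = (1 + u0) * (u1 - u2) ^ 2 + (1 + u1) * (u0 - u2) ^ 2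
      + (1 + u2) * (u0 - u1) ^ 2 := by
    have e : u2 = -u0 - u1 := by linarith
    subst e
    unfold sq3 cb3
    ring
  have p0 : 0 ≤ (1 + u0) * (u1 - u2) ^ 2 := mul_nonneg (by linarith) (sq_nonneg _)
  have p1 : 0 ≤ (1 + u1) * (u0 - u2) ^ 2 := mul_nonneg (by linarith) (sq_nonneg _)
  have p2 : 0 ≤ (1 + u2) * (u0 - u1) ^ 2 := mul_nonneg (by linarith) (sq_nonneg _)
  linarith

lemma neg_cb3_le_sq3 {u0 u1 u2 : ℝ} (hs : u0 + u1 + u2 = 0) (h0 : -1 ≤ u0) (h1 : -1 ≤ u1) (h2 : -1 ≤ u2) :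
    -cb3 u0 u1 u2 ≤ sq3 u0 u1 u2 := by
  have e : sq3 u0 u1 u2 + cb3 u0 u1 u2 = (1 + u0) * u0 ^ 2 + (1 + u1) * u1 ^ 2 + (1 + u2) * u2 ^ 2 := by
    have e : u2 = -u0 - u1 := by linarith
    subst e
    unfold sq3 cb3
    ring
  have p0 : 0 ≤ (1 + u0) * u0 ^ 2 := mul_nonneg (by linarith) (sq_nonneg _)
  have p1 : 0 ≤ (1 + u1) * u1 ^ 2 := mul_nonneg (by linarith) (sq_nonneg _)
  have p2 : 0 ≤ (1 + u2) * u2 ^ 2 := mul_nonneg (by linarith) (sq_nonneg _)
  linarith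

/-- Nonreconstruction from the step inequality for the potential. -/
theorem gap_tendsto_pos {lam a b c κ : ℝ} (h1 : -(1 / 2) ≤ lam) (h2 : lam ≤ 1) (hκ : 0 < κ)
    (ha : 0 ≤ a) (hb : 0 ≤ b) (hc : 0 ≤ c) (hb2 : 6 * b ≤ 1 / 2)
    (hstep : ∀ n, En 2 lam (n + 1) (pot a b c) ≤ En 2 lam n (pot a b c) - κ * (En 2 lam n sq3) ^ 2) :
    Tendsto (fun n => reconstructionGap 3 2 lam n) atTop (𝓝 0) := by
  set K := 1 + 6 * a + 6 * b + 36 * c with hK
  have hKpos : 0 < K := by rw [hK]; positivity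
  -- comparison of the potential with the sum of squares
  have hcmp : ∀ u0 u1 u2 : ℝ, u0 + u1 + u2 = 0 → -1 ≤ u0 → -1 ≤ u1 → -1 ≤ u2 →
      (1 / 2) * sq3 u0 u1 u2 ≤ pot a b c u0 u1 u2 ∧ pot a b c u0 u1 u2 ≤ K * sq3 u0 u1 u2 := by
    intro u0 u1 u2 hs h0 h1 h2
    have hX := sq3_le_six hs h0 h1 h2
    have hX0 := sq3_nonneg u0 u1 u2
    have hC1 := cb3_le_sq3 hs h0 h1 h2
    have hC2 := neg_cb3_le_sq3 hs h0 h1 h2
    unfold pot
    generalize sq3 u0 u1 u2 = X at *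
    generalize cb3 u0 u1 u2 = C at *
    have e1 : b * (X * C) ≤ 6 * b * X := by
      have : X * C ≤ X * 6 := mul_le_mul_of_nonneg_left (by linarith) hX0
      nlinarith [mul_le_mul_of_nonneg_left this hb]
    have e2 : -(b * (X * C)) ≤ 6 * b * X := by
      have : X * (-C) ≤ X * 6 := mul_le_mul_of_nonneg_left (by linarith) hX0
      nlinarith [mul_le_mul_of_nonneg_left this hb]
    have e3 : 0 ≤ a * (X * X) := by positivity
    have e4 : 0 ≤ c * (X * X * X) := by positivity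
    have e5 : a * (X * X) ≤ 6 * a * X := by
      have : X * X ≤ 6 * X := by nlinarith
      nlinarith [mul_le_mul_of_nonneg_left this ha]
    have e6 : c * (X * X * X) ≤ 36 * c * X := by
      have : X * X * X ≤ 36 * X := by nlinarith [mul_nonneg hX0 hX0, mul_nonneg hX0 (sub_nonneg.2 hX)]
      nlinarith [mul_le_mul_of_nonneg_left this hc]
    constructor
    · nlinarith
    · rw [hK]; nlinarith
  have hZ0 := fun n => Z_nonneg (d := 2) h1 h2 n
  have hlow : ∀ n, (1 / 2) * En 2 lam n sq3 ≤ En 2 lam n (pot a b c) := by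
    intro n
    unfold En
    rw [Finset.mul_sum]
    apply Finset.sum_le_sum
    intro s _
    have := (hcmp _ _ _ (msg_sum lam n s) (msg_ge h1 h2 n s 0) (msg_ge h1 h2 n s 1) (msg_ge h1 h2 n s 2)).1
    have h3 := mul_le_mul_of_nonneg_left this (hZ0 n s)
    nlinarith [h3]
  have hup : ∀ n, En 2 lam n (pot a b c) ≤ K * En 2 lam n sq3 := by
    intro n
    unfold En
    rw [Finset.mul_sum]
    apply Finset.sum_le_sum
    intro s _
    have := (hcmp _ _ _ (msg_sum lam n s) (msg_ge h1 h2 n s 0) (msg_ge h1 h2 n s 1) (msg_ge h1 h2 n s 2)).2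
    have h3 := mul_le_mul_of_nonneg_left this (hZ0 n s)
    nlinarith [h3]
  have hΦ0 := fun n => En_sq3_nonneg (d := 2) (lam := lam) h1 h2 n
  have hl0 : ∀ n, 0 ≤ En 2 lam n (pot a b c) := fun n => by linarith [hlow n, hΦ0 n]
  have hrec : ∀ n, En 2 lam (n + 1) (pot a b c) ≤ En 2 lam n (pot a b c)
      - (κ / K ^ 2) * (En 2 lam n (pot a b c)) ^ 2 := by
    intro n
    have h3 : (En 2 lam n (pot a b c)) ^ 2 ≤ K ^ 2 * (En 2 lam n sq3) ^ 2 := by
      rw [← mul_pow]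
      exact pow_le_pow_left₀ (hl0 n) (hup n) 2
    have h4 : (κ / K ^ 2) * (En 2 lam n (pot a b c)) ^ 2 ≤ κ * (En 2 lam n sq3) ^ 2 := by
      rw [div_mul_eq_mul_div, div_le_iff₀ (by positivity)]
      nlinarith [mul_le_mul_of_nonneg_left h3 hκ.le]
    linarith [hstep n]
  have hl := tendsto_zero_of_rec (by positivity) hl0 hrec
  apply gap_tendsto h1 h2
  apply squeeze_zero hΦ0 (g := fun n => 2 * En 2 lam n (pot a b c))
  · intro n; linarith [hlow n]
  · simpa using hl.const_mul 2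

end limit

end Vale.Agent.Lib.P154
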