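import Vale.Agent.Lib.P154.Real2
import Vale.Agent.Lib.P154.Sym
import Vale.Agent.Lib.P154.Step2
import Vale.Agent.Lib.P154.TopD2

/-!
Nonreconstruction on the binary tree for the three-state Potts channel.
-/

namespace Vale.Agent.Lib.P154

namespace D2

open Filter Topology

lemma rvL : rv 281475166523392 = (46341 / 65536) := by norm_num [rv, zv]

lemma side0 (r p w0 w1 : ℝ) (g0 : 0 ≤ w0 - w1) (g1 : 0 ≤ w0 + 2 * w1) (g2 : 0 ≤ 1 - w0)
    (g3 : 0 ≤ 1 - w0 - w1) (g4 : 0 ≤ (46341 / 65536) - 3 * (r * (1 + p)))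
    (g5 : 0 ≤ (46341 / 65536) - 3 * (r * (w0 + w1))) (j : ℕ) :
    0 ≤ Ex.evR (nthEx gs0 j) [r, p, w0, w1] := by
  rcases j with _ | _ | _ | _ | _ | _ | j
  · simpa only [gs0, nthEx_zero, Ex.evR, List.getD_cons_zero, List.getD_cons_succ] using g0
  · simpa only [gs0, nthEx_zero, nthEx_succ, Ex.evR, List.getD_cons_zero, List.getD_cons_succ, rvc2] using g1
  · simpa only [gs0, nthEx_zero, nthEx_succ, Ex.evR, List.getD_cons_zero, List.getD_cons_succ, rvc0] using g2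
  · simpa only [gs0, nthEx_zero, nthEx_succ, Ex.evR, List.getD_cons_zero, List.getD_cons_succ, rvc0] using g3
  · simpa only [gs0, nthEx_zero, nthEx_succ, Ex.evR, List.getD_cons_zero, List.getD_cons_succ, rvc0, rvc3, rvL] using g4
  · simpa only [gs0, nthEx_zero, nthEx_succ, Ex.evR, List.getD_cons_zero, List.getD_cons_succ, rvc3, rvL] using g5
  · simp only [gs0, nthEx_succ, nthEx_nil, Ex.evR, rv_B, le_refl]

lemma side1 (r p w0 w1 : ℝ) (g0 : 0 ≤ w0 - w1) (g1 : 0 ≤ w0 + 2 * w1) (g2 : 0 ≤ 1 - w0)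
    (g3 : 0 ≤ 1 - w0 - w1) (g4 : 0 ≤ (46341 / 65536) - 3 * r)
    (g5 : 0 ≤ (46341 / 65536) - 3 * (r * (w0 + w1))) (j : ℕ) :
    0 ≤ Ex.evR (nthEx gs1 j) [r, p, w0, w1] := by
  rcases j with _ | _ | _ | _ | _ | _ | j
  · simpa only [gs1, nthEx_zero, Ex.evR, List.getD_cons_zero, List.getD_cons_succ] using g0
  · simpa only [gs1, nthEx_zero, nthEx_succ, Ex.evR, List.getD_cons_zero, List.getD_cons_succ, rvc2] using g1
  · simpa only [gs1, nthEx_zero, nthEx_succ, Ex.evR, List.getD_cons_zero, List.getD_cons_succ, rvc0] using g2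
  · simpa only [gs1, nthEx_zero, nthEx_succ, Ex.evR, List.getD_cons_zero, List.getD_cons_succ, rvc0] using g3
  · simpa only [gs1, nthEx_zero, nthEx_succ, Ex.evR, List.getD_cons_zero, List.getD_cons_succ, rvc3, rvL] using g4
  · simpa only [gs1, nthEx_zero, nthEx_succ, Ex.evR, List.getD_cons_zero, List.getD_cons_succ, rvc3, rvL] using g5
  · simp only [gs1, nthEx_succ, nthEx_nil, Ex.evR, rv_B, le_refl]

/-- The scaled inequality in the first chart. -/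
theorem chart0 : Chart0 (27 / 1024) (17 / 256) (5 / 512) (215 / 4096) (769 / 4096) (5 / 128) (1 / 4096) (46341 / 65536) := by
  intro r p w0 w1 hr0 hr1 hp0 hp1 hw00 hw01 hw10 hw11 g0 g1 g2 g3 g4
  have hb : InBox root0 r p w0 w1 := by
    unfold InBox root0
    simp only [abs_le]
    norm_num [rv, zv]
    refine ⟨⟨?_, ?_⟩, ⟨?_, ?_⟩, ⟨?_, ?_⟩, ?_, ?_⟩ <;> linarith
  have := good0 r p w0 w1 hb (side0 r p w0 w1 g0 g1 (by linarith) g2 g3 g4)
  rwa [evR_K0] at this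

/-- The scaled inequality in the second chart. -/
theorem chart1 : Chart1 (27 / 1024) (17 / 256) (5 / 512) (215 / 4096) (769 / 4096) (5 / 128) (1 / 4096) (46341 / 65536) := by
  intro r p w0 w1 hr0 hr1 hp0 hp1 hw00 hw01 hw10 hw11 g0 g1 g2 g3 g4
  have hb : InBox root1 r p w0 w1 := by
    unfold InBox root1
    simp only [abs_le]
    norm_num [rv, zv]
    refine ⟨⟨?_, ?_⟩, ⟨?_, ?_⟩, ⟨?_, ?_⟩, ?_, ?_⟩ <;> linarith
  have := good1 r p w0 w1 hb (side1 r p w0 w1 g0 g1 (by linarith) g2 g3 g4)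
  rwa [evR_K1] at this

lemma cb3_scale (l x y z : ℝ) : cb3 (l * x) (l * y) (l * z) = l ^ 3 * cb3 x y z := by
  unfold cb3; ring

/-- The closure inequality in scaled form. -/
lemma closure_core {X C s b0 : ℝ} (hX0 : 0 ≤ X) (hX6 : X ≤ 6) (h1 : C ≤ X) (hs0 : 0 ≤ s) (hs1 : s ≤ 1)
    (hb1 : 0 ≤ (17 / 256) - b0) (hb2 : (17 / 256) - b0 ≤ 1 / 8192) (hb4 : 0 ≤ b0) :
    0 ≤ (1 - s ^ 2) + ((27 / 1024) - ((215 / 4096) / 2) * s ^ 4) * X - ((17 / 256) - b0 * s ^ 5) * C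
      + ((5 / 512) - ((5 / 128) / 4) * s ^ 6) * X ^ 2 := by
  have s2 : s ^ 2 ≤ 1 := pow_le_one₀ hs0 hs1
  have s4 : s ^ 4 ≤ 1 := pow_le_one₀ hs0 hs1
  have s5 : s ^ 5 ≤ 1 := pow_le_one₀ hs0 hs1
  have s6 : s ^ 6 ≤ 1 := pow_le_one₀ hs0 hs1
  have s50 : 0 ≤ s ^ 5 := by positivity
  have e1 : 0 ≤ ((5 / 512) - ((5 / 128) / 4) * s ^ 6) * X ^ 2 := by
    apply mul_nonneg _ (sq_nonneg X)
    linarith
  have e2 : (1 / 8192 : ℝ) * X ≤ ((27 / 1024) - ((215 / 4096) / 2) * s ^ 4) * X := by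
    apply mul_le_mul_of_nonneg_right _ hX0
    linarith
  have hβ : 0 ≤ (17 / 256) - b0 * s ^ 5 := by nlinarith
  by_cases hC : C ≤ 0
  · have : ((17 / 256) - b0 * s ^ 5) * C ≤ 0 := mul_nonpos_of_nonneg_of_nonpos hβ hC
    nlinarith
  · have hC0 : 0 ≤ C := (not_le.1 hC).le
    have hC6 : C ≤ 6 := by linarith
    have e3 : ((17 / 256) - b0 * s ^ 5) * C = ((17 / 256) - b0) * C + b0 * (1 - s ^ 5) * C := by ring
    have e4 : ((17 / 256) - b0) * C ≤ (1 / 8192) * X := by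
      calc ((17 / 256) - b0) * C ≤ (1 / 8192) * C := mul_le_mul_of_nonneg_right hb2 hC0
        _ ≤ _ := by linarith
    have e5 : 1 - s ^ 5 ≤ (5 / 2) * (1 - s ^ 2) := by
      have h3 : 0 ≤ (1 - s) * (3 / 2 + (3 / 2) * s - s ^ 2 - s ^ 3 - s ^ 4) := by
        apply mul_nonneg (by linarith)
        have t2 : s ^ 2 ≤ s := by nlinarith
        have t3 : s ^ 3 ≤ s := by nlinarith [pow_nonneg hs0 2, pow_le_one₀ hs0 hs1 (n := 2)]
        have t4 : s ^ 4 ≤ s := by nlinarith [pow_nonneg hs0 3, pow_le_one₀ hs0 hs1 (n := 3)]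
        linarith
      nlinarith
    have e6 : 0 ≤ 1 - s ^ 5 := by linarith
    have e7 : b0 * (1 - s ^ 5) * C ≤ 1 - s ^ 2 := by
      have h4 : (1 - s ^ 5) * C ≤ (5 / 2) * (1 - s ^ 2) * 6 := by
        apply mul_le_mul e5 hC6 hC0
        nlinarith
      have h5 : b0 * ((1 - s ^ 5) * C) ≤ b0 * ((5 / 2) * (1 - s ^ 2) * 6) :=
        mul_le_mul_of_nonneg_left h4 hb4
      nlinarith
    rw [e3]
    linarith

/-- The closure inequality. -/
theorem closure {lam : ℝ} (h0 : 0 ≤ lam) (h3 : 2 * lam ^ 2 ≤ 1) {u0 u1 u2 : ℝ} (hs : u0 + u1 + u2 = 0)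
    (h00 : -1 ≤ u0) (h01 : -1 ≤ u1) (h02 : -1 ≤ u2) :
    2 * pot (215 / 4096) (769 / 4096) (5 / 128) (lam * u0) (lam * u1) (lam * u2) ≤ pot (27 / 1024) (17 / 256) (5 / 512) u0 u1 u2 := by
  set ls : ℝ := Real.sqrt 2 / 2 with hls
  have hls2 : ls ^ 2 = 1 / 2 := by
    rw [hls, div_pow, Real.sq_sqrt (by norm_num)]; norm_num
  have hls0 : 0 < ls := by rw [hls]; positivity
  have hls1 : (7071 / 10000 : ℝ) ≤ ls := by
    by_contra hc
    have hc' := not_le.1 hc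
    nlinarith
  have hls3 : ls ≤ 7072 / 10000 := by
    by_contra hc
    have hc' := not_le.1 hc
    nlinarith
  set s : ℝ := lam / ls with hsdef
  have hlam : lam = ls * s := by rw [hsdef]; field_simp
  have hs0 : 0 ≤ s := by rw [hsdef]; positivity
  have hs2 : s ^ 2 ≤ 1 := by
    have : lam ^ 2 = s ^ 2 / 2 := by rw [hlam, mul_pow, hls2]; ring
    rw [this] at h3
    linarith
  have hs1 : s ≤ 1 := by
    by_contra hc
    have hc' := not_le.1 hc
    nlinarith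
  have hX0 := sq3_nonneg u0 u1 u2
  have hX6 := sq3_le_six hs h00 h01 h02
  have hC1 := cb3_le_sq3 hs h00 h01 h02
  have key := closure_core (b0 := (769 / 4096) * ls / 2) hX0 hX6 hC1 hs0 hs1 (by nlinarith) (by nlinarith)
    (by positivity)
  unfold pot
  rw [sq3_scale, cb3_scale, hlam]
  generalize sq3 u0 u1 u2 = X at *
  generalize cb3 u0 u1 u2 = C at *
  have e2 : (ls * s) ^ 2 = s ^ 2 / 2 := by rw [mul_pow, hls2]; ring
  have e4 : (ls * s) ^ 4 = s ^ 4 / 4 := by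
    have : (ls * s) ^ 4 = ((ls) ^ 2) ^ 2 * s ^ 4 := by ring
    rw [this, hls2]; ring
  have e5 : (ls * s) ^ 5 = ls * s ^ 5 / 4 := by
    have : (ls * s) ^ 5 = ((ls) ^ 2) ^ 2 * ls * s ^ 5 := by ring
    rw [this, hls2]; ring
  have e6 : (ls * s) ^ 6 = s ^ 6 / 8 := by
    have : (ls * s) ^ 6 = ((ls) ^ 2) ^ 3 * s ^ 6 := by ring
    rw [this, hls2]; ring
  have e3 : (ls * s) ^ 3 = (ls * s) ^ 3 := rfl
  have main : X + (27 / 1024) * (X * X) - (17 / 256) * (X * C) + (5 / 512) * (X * X * X)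
      - 2 * ((ls * s) ^ 2 * X + (215 / 4096) * ((ls * s) ^ 2 * X * ((ls * s) ^ 2 * X))
        - (769 / 4096) * ((ls * s) ^ 2 * X * ((ls * s) ^ 3 * C))
        + (5 / 128) * ((ls * s) ^ 2 * X * ((ls * s) ^ 2 * X) * ((ls * s) ^ 2 * X)))
      = X * ((1 - s ^ 2) + ((27 / 1024) - ((215 / 4096) / 2) * s ^ 4) * X - ((17 / 256) - (769 / 4096) * ls / 2 * s ^ 5) * C
          + ((5 / 512) - ((5 / 128) / 4) * s ^ 6) * X ^ 2) := by
    have e7 : (ls * s) ^ 2 * X * ((ls * s) ^ 3 * C) = (ls * s) ^ 5 * (X * C) := by ring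
    have e8 : (ls * s) ^ 2 * X * ((ls * s) ^ 2 * X) = (ls * s) ^ 4 * (X * X) := by ring
    have e9 : (ls * s) ^ 2 * X * ((ls * s) ^ 2 * X) * ((ls * s) ^ 2 * X) = (ls * s) ^ 6 * (X * X * X) := by ring
    rw [e7, e9, e8, e2, e4, e5, e6]
    ring
  have := mul_nonneg hX0 key
  rw [← main] at this
  linarith

/-- The merge inequality at the critical value. -/
theorem merge_all (v0 v1 v2 w0 w1 w2 : ℝ) (hv : v0 + v1 + v2 = 0) (hw : w0 + w1 + w2 = 0)
    (hv0 : -(46341 / 65536) ≤ v0) (hv1 : -(46341 / 65536) ≤ v1) (hv2 : -(46341 / 65536) ≤ v2)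
    (hw0 : -(46341 / 65536) ≤ w0) (hw1 : -(46341 / 65536) ≤ w1) (hw2 : -(46341 / 65536) ≤ w2) :
    MergeIneq (27 / 1024) (17 / 256) (5 / 512) (215 / 4096) (769 / 4096) (5 / 128) (1 / 4096) v0 v1 v2 w0 w1 w2 :=
  MergeIneq_all (L := (46341 / 65536)) (by norm_num) (by norm_num) chart0 chart1 hv hw hv0 hv1 hv2 hw0 hw1 hw2

/-- Nonreconstruction on the binary tree. -/
theorem nonreconstruction {lam : ℝ} (h1 : -(1 / 2) ≤ lam) (h2 : lam ≤ 1) (h3 : 2 * lam ^ 2 ≤ 1) :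
    Tendsto (fun n => reconstructionGap 3 2 lam n) atTop (𝓝 0) := by
  rcases le_or_gt lam 0 with h0 | h0
  · exact gap_tendsto_neg h1 h0
  · have hL : lam ≤ (46341 / 65536) := by
      by_contra hc
      have hc' := not_le.1 hc
      nlinarith
    apply gap_tendsto_pos (a := (27 / 1024)) (b := (17 / 256)) (c := (5 / 512)) (κ := 4 * (1 / 4096) * lam ^ 4) h1 h2
      (by positivity) (by norm_num) (by norm_num) (by norm_num) (by norm_num)
    intro n
    exact En_step_pos merge_all h1 h2 h0.le hL (fun u0 u1 u2 hs h00 h01 h02 =>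
      closure h0.le h3 hs h00 h01 h02) (by norm_num) n

end D2

end Vale.Agent.Lib.P154
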