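import Mathlib.Tactic
import Mathlib.Analysis.SpecialFunctions.Pow.Real

/-!
Algebra of the potential for the merging of two messages.
-/

namespace Vale.Agent.Lib.P154

/-- The sum of squares of a triple. -/
def sq3 (x0 x1 x2 : ℝ) : ℝ := x0 * x0 + x1 * x1 + x2 * x2

/-- Three times the product of a triple (the sum of cubes when the sum of the triple is zero). -/
def cb3 (x0 x1 x2 : ℝ) : ℝ := 3 * (x0 * x1 * x2)

/-- The polynomial potential. -/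
def pot (a b c x0 x1 x2 : ℝ) : ℝ :=
  sq3 x0 x1 x2 + a * (sq3 x0 x1 x2 * sq3 x0 x1 x2) - b * (sq3 x0 x1 x2 * cb3 x0 x1 x2)
    + c * (sq3 x0 x1 x2 * sq3 x0 x1 x2 * sq3 x0 x1 x2)

/-- Normalization in the merge of two messages. -/
noncomputable def nrm (v0 v1 v2 w0 w1 w2 : ℝ) : ℝ := 1 + (v0 * w0 + v1 * w1 + v2 * w2) / 3

/-- Numerator of one coordinate in the merge of two messages. -/
noncomputable def num (v0 v1 v2 w0 w1 w2 vi wi : ℝ) : ℝ :=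
  vi + wi + vi * wi - (v0 * w0 + v1 * w1 + v2 * w2) / 3

/-- The weighted potential of a merged message. -/
noncomputable def mergeF (a b c v0 v1 v2 w0 w1 w2 : ℝ) : ℝ :=
  nrm v0 v1 v2 w0 w1 w2 *
    pot a b c (num v0 v1 v2 w0 w1 w2 v0 w0 / nrm v0 v1 v2 w0 w1 w2)
      (num v0 v1 v2 w0 w1 w2 v1 w1 / nrm v0 v1 v2 w0 w1 w2)
      (num v0 v1 v2 w0 w1 w2 v2 w2 / nrm v0 v1 v2 w0 w1 w2)

/-- The average of `mergeF` over the six permutations of the second message. -/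
noncomputable def avgF (a b c v0 v1 v2 w0 w1 w2 : ℝ) : ℝ :=
  (1 / 6) * (mergeF a b c v0 v1 v2 w0 w1 w2 + mergeF a b c v0 v1 v2 w0 w2 w1
    + mergeF a b c v0 v1 v2 w1 w0 w2 + mergeF a b c v0 v1 v2 w1 w2 w0
    + mergeF a b c v0 v1 v2 w2 w0 w1 + mergeF a b c v0 v1 v2 w2 w1 w0)

/-- One term of the scaled form, for one permutation of the second message. -/
noncomputable def Tg (a b c v0 v1 v2 wa wb wc r c1 c2 : ℝ) : ℝ :=
  let ip := v0 * wa + v1 * wb + v2 * wc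
  let S := 1 + 3 * (r * r * ip)
  let N0 := v0 + wa + r * (3 * (v0 * wa) - ip)
  let N1 := v1 + wb + r * (3 * (v1 * wb) - ip)
  let N2 := -1 * (N0 + N1)
  let n2 := N0 * N0 + N1 * N1 + N2 * N2
  let n3 := 3 * (N0 * N1 * N2)
  let E := ip * c1 + c2 + 3 * (r * (v0 * v0 * wa + v1 * v1 * wb + v2 * v2 * wc
    + v0 * (wa * wa) + v1 * (wb * wb) + v2 * (wc * wc)))
  let iS := S⁻¹
  let iS2 := iS * iS
  let iS3 := iS * iS2
  let n22 := n2 * n2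
  2 * (r * r * (ip * ip) * (E * iS))
    + iS3 * (a * n22 - (3 * b) * ((r * iS) * (n2 * n3)) + (9 * c) * ((r * r * iS2) * (n2 * n22)))

/-- The scaled form of the main inequality. -/
noncomputable def Kval (a b c ap bp cp t v0 v1 v2 w0 w1 w2 r : ℝ) : ℝ :=
  let Xv := sq3 v0 v1 v2
  let Xw := sq3 w0 w1 w2
  let Cv := cb3 v0 v1 v2
  let Cw := cb3 w0 w1 w2
  let Xs := Xv + Xw
  let XX := Xv * Xw
  let c1 := 1 - (3 / 2) * (r * r * Xs)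
  let c2 := (3 / 4) * (r * r * XX)
  let Xv2 := Xv * Xv
  let Xw2 := Xw * Xw
  (XX - 3 * (r * r * (XX * Xs)) + 6 * (r * (Xw * Cv + Xv * Cw))
    + 6 * (ap * (Xv2 + Xw2) - (3 * bp) * (r * (Xv * Cv + Xw * Cw))
      + (9 * cp) * (r * r * (Xv2 * Xv + Xw2 * Xw)))
    - (6 * t) * (Xs * Xs))
  - (Tg a b c v0 v1 v2 w0 w1 w2 r c1 c2 + Tg a b c v0 v1 v2 w0 w2 w1 r c1 c2
    + Tg a b c v0 v1 v2 w1 w0 w2 r c1 c2 + Tg a b c v0 v1 v2 w1 w2 w0 r c1 c2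
    + Tg a b c v0 v1 v2 w2 w0 w1 r c1 c2 + Tg a b c v0 v1 v2 w2 w1 w0 r c1 c2)

/-- Expansion of the potential along a scaled numerator. -/
lemma S_pot (a b c ρ S N0 N1 N2 : ℝ) (hS : S ≠ 0) :
    S * pot a b c (ρ * N0 / S) (ρ * N1 / S) (ρ * N2 / S)
      = ρ ^ 2 * (N0 * N0 + N1 * N1 + N2 * N2) * S⁻¹
        + ρ ^ 4 * (S⁻¹ * (S⁻¹ * S⁻¹) * (a * ((N0 * N0 + N1 * N1 + N2 * N2) * (N0 * N0 + N1 * N1 + N2 * N2))))
        - ρ ^ 5 * (S⁻¹ * (S⁻¹ * S⁻¹) * (b * (S⁻¹ * ((N0 * N0 + N1 * N1 + N2 * N2) * (3 * (N0 * N1 * N2))))))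
        + ρ ^ 6 * (S⁻¹ * (S⁻¹ * S⁻¹) * (c * (S⁻¹ * S⁻¹ * ((N0 * N0 + N1 * N1 + N2 * N2)
            * ((N0 * N0 + N1 * N1 + N2 * N2) * (N0 * N0 + N1 * N1 + N2 * N2)))))) := by
  unfold pot sq3 cb3
  field_simp

/-- Scaled form of one term. -/
lemma mergeF_scaled (a b c r v0 v1 v2 wa wb wc : ℝ) (hv : v0 + v1 + v2 = 0) (hw : wa + wb + wc = 0)
    (hS : 1 + 3 * (r * r * (v0 * wa + v1 * wb + v2 * wc)) ≠ 0) :
    mergeF a b c (3 * r * v0) (3 * r * v1) (3 * r * v2) (3 * r * wa) (3 * r * wb) (3 * r * wc)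
      = 9 * r ^ 2 * (sq3 v0 v1 v2 + sq3 wa wb wc)
        + 18 * r ^ 2 * ((v0 * wa + v1 * wb + v2 * wc) * (1 - (3 / 2) * (r * r * (sq3 v0 v1 v2 + sq3 wa wb wc)))
            + (3 / 4) * (r * r * (sq3 v0 v1 v2 * sq3 wa wb wc))
            + 3 * (r * (v0 * v0 * wa + v1 * v1 * wb + v2 * v2 * wc
              + v0 * (wa * wa) + v1 * (wb * wb) + v2 * (wc * wc))))
          * (1 - 3 * (r * r * (v0 * wa + v1 * wb + v2 * wc)))
        + 81 * r ^ 4 * Tg a b c v0 v1 v2 wa wb wc r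
          (1 - (3 / 2) * (r * r * (sq3 v0 v1 v2 + sq3 wa wb wc)))
          ((3 / 4) * (r * r * (sq3 v0 v1 v2 * sq3 wa wb wc))) := by
  have hv2 : v2 = -v0 - v1 := by linarith
  have hwc : wc = -wa - wb := by linarith
  set ip := v0 * wa + v1 * wb + v2 * wc with hip
  set S := 1 + 3 * (r * r * ip) with hSdef
  set N0 := v0 + wa + r * (3 * (v0 * wa) - ip) with hN0
  set N1 := v1 + wb + r * (3 * (v1 * wb) - ip) with hN1
  set N2 := -1 * (N0 + N1) with hN2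
  have e1 : nrm (3 * r * v0) (3 * r * v1) (3 * r * v2) (3 * r * wa) (3 * r * wb) (3 * r * wc) = S := by
    unfold nrm; rw [hSdef, hip]; ring
  have e2 : num (3 * r * v0) (3 * r * v1) (3 * r * v2) (3 * r * wa) (3 * r * wb) (3 * r * wc)
      (3 * r * v0) (3 * r * wa) = 3 * r * N0 := by
    unfold num; rw [hN0, hip]; ring
  have e3 : num (3 * r * v0) (3 * r * v1) (3 * r * v2) (3 * r * wa) (3 * r * wb) (3 * r * wc)
      (3 * r * v1) (3 * r * wb) = 3 * r * N1 := by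
    unfold num; rw [hN1, hip]; ring
  have e4 : num (3 * r * v0) (3 * r * v1) (3 * r * v2) (3 * r * wa) (3 * r * wb) (3 * r * wc)
      (3 * r * v2) (3 * r * wc) = 3 * r * N2 := by
    unfold num; rw [hN2, hN0, hN1, hip, hv2, hwc]; ring
  unfold mergeF
  rw [e1, e2, e3, e4, S_pot a b c (3 * r) S N0 N1 N2 hS]
  set E := ip * (1 - (3 / 2) * (r * r * (sq3 v0 v1 v2 + sq3 wa wb wc)))
            + (3 / 4) * (r * r * (sq3 v0 v1 v2 * sq3 wa wb wc))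
            + 3 * (r * (v0 * v0 * wa + v1 * v1 * wb + v2 * v2 * wc
              + v0 * (wa * wa) + v1 * (wb * wb) + v2 * (wc * wc))) with hE
  have key : N0 * N0 + N1 * N1 + N2 * N2 = (sq3 v0 v1 v2 + sq3 wa wb wc) * S + 2 * E := by
    rw [hE, hSdef, hN2, hN0, hN1, hip, hv2, hwc]
    unfold sq3
    ring
  have hinv : S⁻¹ = 1 - (S - 1) + (S - 1) ^ 2 * S⁻¹ := by
    field_simp
    ring
  have hS1 : S - 1 = 3 * (r * r * ip) := by rw [hSdef]; ring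
  have hfirst : (3 * r) ^ 2 * (N0 * N0 + N1 * N1 + N2 * N2) * S⁻¹
      = 9 * r ^ 2 * (sq3 v0 v1 v2 + sq3 wa wb wc) + 18 * r ^ 2 * E * (1 - 3 * (r * r * ip))
        + 81 * r ^ 4 * (2 * (r * r * (ip * ip) * (E * S⁻¹))) := by
    rw [key]
    have h3 : (3 * r) ^ 2 * ((sq3 v0 v1 v2 + sq3 wa wb wc) * S + 2 * E) * S⁻¹
        = 9 * r ^ 2 * (sq3 v0 v1 v2 + sq3 wa wb wc) + 18 * r ^ 2 * E * S⁻¹ := by
      field_simp
      ring
    rw [h3]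
    have h4 : 18 * r ^ 2 * E * S⁻¹ = 18 * r ^ 2 * E * (1 - (S - 1) + (S - 1) ^ 2 * S⁻¹) := by
      rw [← hinv]
    rw [h4, hS1]
    ring
  rw [hfirst]
  simp only [Tg]
  ring

lemma sq3_swap12 (x y z : ℝ) : sq3 x z y = sq3 x y z := by unfold sq3; ring
lemma sq3_swap01 (x y z : ℝ) : sq3 y x z = sq3 x y z := by unfold sq3; ring
lemma sq3_rot1 (x y z : ℝ) : sq3 y z x = sq3 x y z := by unfold sq3; ring
lemma sq3_rot2 (x y z : ℝ) : sq3 z x y = sq3 x y z := by unfold sq3; ring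
lemma sq3_swap02 (x y z : ℝ) : sq3 z y x = sq3 x y z := by unfold sq3; ring

/-- The polynomial part of one term. -/
noncomputable def Eg (r v0 v1 v2 wa wb wc Xv Xw : ℝ) : ℝ :=
  ((v0 * wa + v1 * wb + v2 * wc) * (1 - (3 / 2) * (r * r * (Xv + Xw)))
    + (3 / 4) * (r * r * (Xv * Xw))
    + 3 * (r * (v0 * v0 * wa + v1 * v1 * wb + v2 * v2 * wc
      + v0 * (wa * wa) + v1 * (wb * wb) + v2 * (wc * wc))))
  * (1 - 3 * (r * r * (v0 * wa + v1 * wb + v2 * wc)))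

/-- The sum over the six permutations of the polynomial part. -/
lemma Eg_sum (r v0 v1 w0 w1 : ℝ) :
    let v2 := -v0 - v1
    let w2 := -w0 - w1
    let Xv := sq3 v0 v1 v2
    let Xw := sq3 w0 w1 w2
    18 * r ^ 2 * (Eg r v0 v1 v2 w0 w1 w2 Xv Xw + Eg r v0 v1 v2 w0 w2 w1 Xv Xw
      + Eg r v0 v1 v2 w1 w0 w2 Xv Xw + Eg r v0 v1 v2 w1 w2 w0 Xv Xw
      + Eg r v0 v1 v2 w2 w0 w1 Xv Xw + Eg r v0 v1 v2 w2 w1 w0 Xv Xw)
    = 81 * r ^ 4 * (- (Xv * Xw) + 3 * (r * r * (Xv * Xw * (Xv + Xw)))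
        - 6 * (r * (Xw * cb3 v0 v1 v2 + Xv * cb3 w0 w1 w2))) := by
  intro v2 w2 Xv Xw
  simp only [v2, w2, Xv, Xw, Eg, sq3, cb3]
  ring

/-- The potential of a scaled message. -/
lemma pot_scaled (a b c r x0 x1 x2 : ℝ) :
    pot a b c (3 * r * x0) (3 * r * x1) (3 * r * x2)
      = 9 * r ^ 2 * sq3 x0 x1 x2 + 81 * r ^ 4 * (a * (sq3 x0 x1 x2 * sq3 x0 x1 x2)
        - (3 * b) * (r * (sq3 x0 x1 x2 * cb3 x0 x1 x2))
        + (9 * c) * (r * r * (sq3 x0 x1 x2 * sq3 x0 x1 x2 * sq3 x0 x1 x2))) := by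
  unfold pot sq3 cb3
  ring

/-- The main identity: the defect of the potential inequality in terms of the scaled form. -/
theorem G_scaled (a b c ap bp cp t r v0 v1 v2 w0 w1 w2 : ℝ) (hv : v0 + v1 + v2 = 0)
    (hw : w0 + w1 + w2 = 0)
    (h1 : 1 + 3 * (r * r * (v0 * w0 + v1 * w1 + v2 * w2)) ≠ 0)
    (h2 : 1 + 3 * (r * r * (v0 * w0 + v1 * w2 + v2 * w1)) ≠ 0)
    (h3 : 1 + 3 * (r * r * (v0 * w1 + v1 * w0 + v2 * w2)) ≠ 0)
    (h4 : 1 + 3 * (r * r * (v0 * w1 + v1 * w2 + v2 * w0)) ≠ 0)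
    (h5 : 1 + 3 * (r * r * (v0 * w2 + v1 * w0 + v2 * w1)) ≠ 0)
    (h6 : 1 + 3 * (r * r * (v0 * w2 + v1 * w1 + v2 * w0)) ≠ 0) :
    pot ap bp cp (3 * r * v0) (3 * r * v1) (3 * r * v2)
        + pot ap bp cp (3 * r * w0) (3 * r * w1) (3 * r * w2)
        - avgF a b c (3 * r * v0) (3 * r * v1) (3 * r * v2) (3 * r * w0) (3 * r * w1) (3 * r * w2)
      = (81 * r ^ 4 / 6) * (Kval a b c ap bp cp t v0 v1 v2 w0 w1 w2 r
          + (6 * t) * ((sq3 v0 v1 v2 + sq3 w0 w1 w2) * (sq3 v0 v1 v2 + sq3 w0 w1 w2))) := by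
  have hv2 : v2 = -v0 - v1 := by linarith
  have hw2 : w2 = -w0 - w1 := by linarith
  have hE := Eg_sum r v0 v1 w0 w1
  simp only [] at hE
  rw [← hv2, ← hw2] at hE
  unfold avgF
  rw [mergeF_scaled a b c r v0 v1 v2 w0 w1 w2 hv hw h1,
    mergeF_scaled a b c r v0 v1 v2 w0 w2 w1 hv (by linarith) h2,
    mergeF_scaled a b c r v0 v1 v2 w1 w0 w2 hv (by linarith) h3,
    mergeF_scaled a b c r v0 v1 v2 w1 w2 w0 hv (by linarith) h4,
    mergeF_scaled a b c r v0 v1 v2 w2 w0 w1 hv (by linarith) h5,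
    mergeF_scaled a b c r v0 v1 v2 w2 w1 w0 hv (by linarith) h6,
    sq3_swap12 w0 w1 w2, sq3_swap01 w0 w1 w2, sq3_rot1 w0 w1 w2, sq3_rot2 w0 w1 w2,
    sq3_swap02 w0 w1 w2, pot_scaled, pot_scaled]
  simp only [Kval]
  set Xv := sq3 v0 v1 v2
  set Xw := sq3 w0 w1 w2
  set Cv := cb3 v0 v1 v2
  set Cw := cb3 w0 w1 w2
  generalize Tg a b c v0 v1 v2 w0 w1 w2 r (1 - 3 / 2 * (r * r * (Xv + Xw))) (3 / 4 * (r * r * (Xv * Xw))) = T1
  generalize Tg a b c v0 v1 v2 w0 w2 w1 r (1 - 3 / 2 * (r * r * (Xv + Xw))) (3 / 4 * (r * r * (Xv * Xw))) = T2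
  generalize Tg a b c v0 v1 v2 w1 w0 w2 r (1 - 3 / 2 * (r * r * (Xv + Xw))) (3 / 4 * (r * r * (Xv * Xw))) = T3
  generalize Tg a b c v0 v1 v2 w1 w2 w0 r (1 - 3 / 2 * (r * r * (Xv + Xw))) (3 / 4 * (r * r * (Xv * Xw))) = T4
  generalize Tg a b c v0 v1 v2 w2 w0 w1 r (1 - 3 / 2 * (r * r * (Xv + Xw))) (3 / 4 * (r * r * (Xv * Xw))) = T5
  generalize Tg a b c v0 v1 v2 w2 w1 w0 r (1 - 3 / 2 * (r * r * (Xv + Xw))) (3 / 4 * (r * r * (Xv * Xw))) = T6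
  simp only [Eg] at hE
  linear_combination (-1 / 6 : ℝ) * hE

end Vale.Agent.Lib.P154
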