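import Vale.Agent.Lib.P154.AFSound
import Vale.Agent.Lib.P154.Pot
import Vale.Agent.Lib.P154.Prog2

/-! Link between the generated programs and the real formula. -/

namespace Vale.Agent.Lib.P154

namespace D2

lemma rvc0 : rv 281475245146112 = 1 := by norm_num [rv, zv]
lemma rvc1 : rv 281474708275200 = -1 := by norm_num [rv, zv]
lemma rvc2 : rv 281475513581568 = 2 := by norm_num [rv, zv]
lemma rvc3 : rv 281475782017024 = 3 := by norm_num [rv, zv]
lemma rvc4 : rv 281476587323392 = 6 := by norm_num [rv, zv]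
lemma rvc5 : rv 281475379363840 = 3 / 2 := by norm_num [rv, zv]
lemma rvc6 : rv 281475178037248 = 3 / 4 := by norm_num [rv, zv]
lemma rvc7 : rv 281474983788544 = (27 / 1024) := by norm_num [rv, zv]
lemma rvc8 : rv 281475030188032 = 3 * (17 / 256) := by norm_num [rv, zv]
lemma rvc9 : rv 281475000303616 = 9 * (5 / 512) := by norm_num [rv, zv]
lemma rvc10 : rv 281474990800896 = (215 / 4096) := by norm_num [rv, zv]
lemma rvc11 : rv 281475127902208 = 3 * (769 / 4096) := by norm_num [rv, zv]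
lemma rvc12 : rv 281475071082496 = 9 * (5 / 128) := by norm_num [rv, zv]
lemma rvc13 : rv 281474977103872 = 6 * (1 / 4096) := by norm_num [rv, zv]

set_option maxRecDepth 100000 in
set_option maxHeartbeats 4000000 in
theorem evR_K0 (r p w0 w1 : ℝ) : Ex.evR K0 [r, p, w0, w1]
    = Kval (27 / 1024) (17 / 256) (5 / 512) (215 / 4096) (769 / 4096) (5 / 128) (1 / 4096) 1 p (-1 * (1 + p)) w0 w1 (-1 * (w0 + w1)) r := by
  simp (maxSteps := 100000000) only [K0, Kval, Tg, sq3, cb3, Ex.evR, List.getD_cons_zero, List.getD_cons_succ, rvc0, rvc1, rvc2, rvc3, rvc4, rvc5, rvc6, rvc7, rvc8, rvc9, rvc10, rvc11, rvc12, rvc13]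

set_option maxRecDepth 100000 in
set_option maxHeartbeats 4000000 in
theorem evR_K1 (r p w0 w1 : ℝ) : Ex.evR K1 [r, p, w0, w1]
    = Kval (27 / 1024) (17 / 256) (5 / 512) (215 / 4096) (769 / 4096) (5 / 128) (1 / 4096) (1 - p) p (-1) w0 w1 (-1 * (w0 + w1)) r := by
  simp (maxSteps := 100000000) only [K1, Kval, Tg, sq3, cb3, Ex.evR, List.getD_cons_zero, List.getD_cons_succ, rvc0, rvc1, rvc2, rvc3, rvc4, rvc5, rvc6, rvc7, rvc8, rvc9, rvc10, rvc11, rvc12, rvc13]

end D2

end Vale.Agent.Lib.P154
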