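import Vale.Agent.Lib.P154.Defs

/-!
Basic facts on the broadcasting process: nonnegativity, total mass, colour symmetry.
-/

namespace Vale.Agent.Lib.P154

open scoped BigOperators


section three

variable {d : ℕ} {lam : ℝ}

lemma channel3_nonneg (h1 : -(1 / 2) ≤ lam) (h2 : lam ≤ 1) (i j : Fin 3) :
    0 ≤ pottsChannel 3 lam i j := by
  unfold pottsChannel
  split_ifs
  · norm_num; linarith
  · norm_num; linarith

lemma channel3_sum (i : Fin 3) (lam : ℝ) (x : Fin 3 → ℝ) :
    ∑ j, pottsChannel 3 lam i j * x j = lam * x i + (1 - lam) * ((1 / 3) * ∑ j, x j) := by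
  unfold pottsChannel
  fin_cases i <;> simp [Fin.sum_univ_three] <;> ring

lemma channel3_row (i : Fin 3) (lam : ℝ) : ∑ j, pottsChannel 3 lam i j = 1 := by
  have := channel3_sum i lam (fun _ => 1)
  simp [Fin.sum_univ_three] at this ⊢
  unfold pottsChannel at *
  fin_cases i <;> simp <;> ring

lemma lik_nonneg (h1 : -(1 / 2) ≤ lam) (h2 : lam ≤ 1) :
    ∀ (n : ℕ) (i : Fin 3) (s : LeafConfig 3 d n), 0 ≤ leafLik 3 d lam n i s := by
  intro n
  induction n with
  | zero =>
    intro i s
    show 0 ≤ (if rootColour s = i then (1 : ℝ) else 0)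
    split_ifs <;> norm_num
  | succ n ih =>
    intro i s
    show 0 ≤ ∏ c : Fin d, ∑ j : Fin 3, pottsChannel 3 lam i j * leafLik 3 d lam n j (s c)
    apply Finset.prod_nonneg
    intro c _
    apply Finset.sum_nonneg
    intro j _
    exact mul_nonneg (channel3_nonneg h1 h2 i j) (ih j (s c))

/-- The sum over colourings at depth `n + 1`. -/
lemma sum_succ (n : ℕ) (f : LeafConfig 3 d (n + 1) → ℝ) :
    ∑ s : LeafConfig 3 d (n + 1), f s = ∑ s : Fin d → LeafConfig 3 d n, f s := rfl

lemma sum_lik (lam : ℝ) : ∀ (n : ℕ) (i : Fin 3), ∑ s : LeafConfig 3 d n, leafLik 3 d lam n i s = 1 := by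
  intro n
  induction n with
  | zero =>
    intro i
    show ∑ s : Fin 3, (if s = i then (1 : ℝ) else 0) = 1
    simp
  | succ n ih =>
    intro i
    rw [sum_succ]
    show ∑ s : Fin d → LeafConfig 3 d n, ∏ c : Fin d, ∑ j : Fin 3,
      pottsChannel 3 lam i j * leafLik 3 d lam n j (s c) = 1
    have := (Finset.prod_univ_sum (fun _ : Fin d => (Finset.univ : Finset (LeafConfig 3 d n)))
      (fun _ x => ∑ j : Fin 3, pottsChannel 3 lam i j * leafLik 3 d lam n j x)).symm
    rw [Fintype.piFinset_univ] at this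
    rw [this]
    apply Finset.prod_eq_one
    intro c _
    rw [Finset.sum_comm]
    have h2 : ∀ j : Fin 3, ∑ x : LeafConfig 3 d n, pottsChannel 3 lam i j * leafLik 3 d lam n j x
        = pottsChannel 3 lam i j := by
      intro j
      rw [← Finset.mul_sum, ih j, mul_one]
    simp_rw [h2]
    exact channel3_row i lam

/-- The probability of a colouring at depth `n`. -/
noncomputable def Zf (lam : ℝ) (n : ℕ) (s : LeafConfig 3 d n) : ℝ :=
  (1 / 3) * ∑ i : Fin 3, leafLik 3 d lam n i s

/-- The posterior of the root colour, centered and scaled, with value zero on colourings of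
probability zero. -/
noncomputable def msg (lam : ℝ) (n : ℕ) (s : LeafConfig 3 d n) (i : Fin 3) : ℝ :=
  if Zf lam n s = 0 then 0 else leafLik 3 d lam n i s / Zf lam n s - 1

lemma leafProb_eq (lam : ℝ) (n : ℕ) (s : LeafConfig 3 d n) : leafProb 3 d lam n s = Zf lam n s := by
  unfold leafProb Zf
  rw [Finset.mul_sum]
  norm_num

lemma Z_nonneg (h1 : -(1 / 2) ≤ lam) (h2 : lam ≤ 1) (n : ℕ) (s : LeafConfig 3 d n) :
    0 ≤ Zf lam n s := by
  unfold Zf
  apply mul_nonneg (by norm_num)
  exact Finset.sum_nonneg fun i _ => lik_nonneg h1 h2 n i s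

lemma sum_Z (lam : ℝ) (n : ℕ) : ∑ s : LeafConfig 3 d n, Zf lam n s = 1 := by
  unfold Zf
  rw [← Finset.mul_sum, Finset.sum_comm]
  simp_rw [sum_lik]
  simp

lemma lik_zero_of_Z (h1 : -(1 / 2) ≤ lam) (h2 : lam ≤ 1) {n : ℕ} {s : LeafConfig 3 d n}
    (h : Zf lam n s = 0) (i : Fin 3) : leafLik 3 d lam n i s = 0 := by
  unfold Zf at h
  have h3 : ∑ i : Fin 3, leafLik 3 d lam n i s = 0 := by linarith
  have := (Finset.sum_eq_zero_iff_of_nonneg (fun i _ => lik_nonneg h1 h2 n i s)).1 h3 i (Finset.mem_univ _)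
  exact this

lemma lik_eq (h1 : -(1 / 2) ≤ lam) (h2 : lam ≤ 1) (n : ℕ) (s : LeafConfig 3 d n) (i : Fin 3) :
    leafLik 3 d lam n i s = Zf lam n s * (1 + msg lam n s i) := by
  by_cases h : Zf lam n s = 0
  · rw [lik_zero_of_Z h1 h2 h i, h, zero_mul]
  · unfold msg
    rw [if_neg h]
    field_simp
    ring

lemma msg_sum (lam : ℝ) (n : ℕ) (s : LeafConfig 3 d n) :
    msg lam n s 0 + msg lam n s 1 + msg lam n s 2 = 0 := by
  by_cases h : Zf lam n s = 0
  · simp [msg, h]
  · simp only [msg, if_neg h]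
    have e : Zf lam n s = (1 / 3) * (leafLik 3 d lam n 0 s + leafLik 3 d lam n 1 s + leafLik 3 d lam n 2 s) := by
      unfold Zf; rw [Fin.sum_univ_three]
    field_simp
    rw [e]; ring

lemma msg_ge (h1 : -(1 / 2) ≤ lam) (h2 : lam ≤ 1) (n : ℕ) (s : LeafConfig 3 d n) (i : Fin 3) :
    -1 ≤ msg lam n s i := by
  by_cases h : Zf lam n s = 0
  · simp [msg, h]
  · simp only [msg, if_neg h]
    have hz : 0 < Zf lam n s := lt_of_le_of_ne (Z_nonneg h1 h2 n s) (Ne.symm h)
    have : 0 ≤ leafLik 3 d lam n i s / Zf lam n s := div_nonneg (lik_nonneg h1 h2 n i s) hz.le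
    linarith

/-- Relation with the posterior. -/
lemma posterior_eq (n : ℕ) (s : LeafConfig 3 d n) (i : Fin 3) (h : Zf lam n s ≠ 0) :
    rootPosterior 3 d lam n s i - 1 / ((3 : ℕ) : ℝ) = msg lam n s i / 3 := by
  unfold rootPosterior
  rw [leafProb_eq]
  simp only [msg, if_neg h]
  push_cast
  field_simp

/-- Recolouring by a permutation of the colours. -/
def recolor (g : Equiv.Perm (Fin 3)) : (n : ℕ) → LeafConfig 3 d n → LeafConfig 3 d n
  | 0, s => (g (rootColour s) : Fin 3)
  | n + 1, s => fun c => recolor g n (s c)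

lemma recolor_recolor (g h : Equiv.Perm (Fin 3)) (n : ℕ) (s : LeafConfig 3 d n) :
    recolor g n (recolor h n s) = recolor (g * h) n s := by
  induction n with
  | zero => rfl
  | succ n ih =>
    funext c
    exact ih _

lemma recolor_one (n : ℕ) (s : LeafConfig 3 d n) : recolor 1 n s = s := by
  induction n with
  | zero => rfl
  | succ n ih =>
    funext c
    exact ih _

/-- Recolouring as a bijection. -/
def recolorEquiv (g : Equiv.Perm (Fin 3)) (n : ℕ) : LeafConfig 3 d n ≃ LeafConfig 3 d n where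
  toFun := recolor g n
  invFun := recolor g⁻¹ n
  left_inv s := by rw [recolor_recolor]; simp [recolor_one]
  right_inv s := by rw [recolor_recolor]; simp [recolor_one]

lemma channel3_perm (g : Equiv.Perm (Fin 3)) (lam : ℝ) (i j : Fin 3) :
    pottsChannel 3 lam (g i) (g j) = pottsChannel 3 lam i j := by
  unfold pottsChannel
  simp

lemma lik_recolor (g : Equiv.Perm (Fin 3)) (lam : ℝ) : ∀ (n : ℕ) (i : Fin 3) (s : LeafConfig 3 d n),
    leafLik 3 d lam n (g i) (recolor g n s) = leafLik 3 d lam n i s := by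
  intro n
  induction n with
  | zero =>
    intro i s
    show (if g (rootColour s) = g i then (1 : ℝ) else 0) = if rootColour s = i then (1 : ℝ) else 0
    simp
  | succ n ih =>
    intro i s
    show ∏ c : Fin d, ∑ j : Fin 3, pottsChannel 3 lam (g i) j * leafLik 3 d lam n j (recolor g n (s c))
      = ∏ c : Fin d, ∑ j : Fin 3, pottsChannel 3 lam i j * leafLik 3 d lam n j (s c)
    apply Finset.prod_congr rfl
    intro c _
    rw [← Equiv.sum_comp g]
    apply Finset.sum_congr rfl
    intro j _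
    rw [channel3_perm, ih]

lemma Z_recolor (g : Equiv.Perm (Fin 3)) (lam : ℝ) (n : ℕ) (s : LeafConfig 3 d n) :
    Zf lam n (recolor g n s) = Zf lam n s := by
  unfold Zf
  rw [← Equiv.sum_comp g]
  simp_rw [lik_recolor]

lemma msg_recolor (g : Equiv.Perm (Fin 3)) (lam : ℝ) (n : ℕ) (s : LeafConfig 3 d n) (i : Fin 3) :
    msg lam n (recolor g n s) (g i) = msg lam n s i := by
  unfold msg
  rw [Z_recolor, lik_recolor]

/-- The law of the message is invariant under permutations of the colours. -/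
lemma sum_perm (g : Equiv.Perm (Fin 3)) (lam : ℝ) (n : ℕ) (h : ℝ → ℝ → ℝ → ℝ) :
    ∑ s : LeafConfig 3 d n, Zf lam n s * h (msg lam n s (g 0)) (msg lam n s (g 1)) (msg lam n s (g 2))
      = ∑ s : LeafConfig 3 d n, Zf lam n s * h (msg lam n s 0) (msg lam n s 1) (msg lam n s 2) := by
  rw [← Equiv.sum_comp (recolorEquiv g n)]
  apply Finset.sum_congr rfl
  intro s _
  show Zf lam n (recolor g n s) * h (msg lam n (recolor g n s) (g 0)) (msg lam n (recolor g n s) (g 1))
      (msg lam n (recolor g n s) (g 2)) = _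
  rw [Z_recolor, msg_recolor, msg_recolor, msg_recolor]

end three

end Vale.Agent.Lib.P154
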